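import Vale.Agent.P331.H524.T
import Vale.Agent.P331.H318.HCS

/-!
# The hypercontractive inequality with a supremum over contexts
-/

set_option autoImplicit false
set_option linter.unusedSectionVars false

namespace Vale.Agent.P331.H524

open Finset

variable {E : Type*} [Fintype E] [DecidableEq E]

/-- the maximum over the contexts inside `V` -/
noncomputable def Mx (η t : ℝ) (φ : Finset E → ℝ) (V G R : Finset E) : ℝ :=
  V.powerset.sup' ⟨∅, empty_mem_powerset V⟩
    (fun Y => η ^ Y.card * tn t R (fun N => φ (Y ∪ (G ∪ N))))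

theorem le_Mx (η t : ℝ) (φ : Finset E → ℝ) {V Y : Finset E} (G R : Finset E) (h : Y ⊆ V) :
    η ^ Y.card * tn t R (fun N => φ (Y ∪ (G ∪ N))) ≤ Mx η t φ V G R :=
  le_sup' (f := fun Y => η ^ Y.card * tn t R (fun N => φ (Y ∪ (G ∪ N)))) (mem_powerset.2 h)

theorem Mx_le {η t : ℝ} {φ : Finset E → ℝ} {V G R : Finset E} {c : ℝ}
    (h : ∀ Y ⊆ V, η ^ Y.card * tn t R (fun N => φ (Y ∪ (G ∪ N))) ≤ c) : Mx η t φ V G R ≤ c :=
  sup'_le _ _ fun Y hY => h Y (mem_powerset.1 hY)

theorem Mx_nonneg {η t : ℝ} (hη : 0 ≤ η) (h0 : 0 ≤ t) (h1 : t ≤ 1) {φ : Finset E → ℝ}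
    (hφ : ∀ A, 0 ≤ φ A) (V G R : Finset E) : 0 ≤ Mx η t φ V G R :=
  le_trans (mul_nonneg (pow_nonneg hη _) (tn_nonneg h0 h1 R fun _ _ => hφ _))
    (le_Mx η t φ G R (empty_subset V))

/-- the nested average: `S` a thinning of `U`, `G` a thinning of `S` -/
def EE (s g : ℝ) (U : Finset E) (F : Finset E → Finset E → ℝ) : ℝ :=
  tn s U (fun S => tn g S (fun G => F S G))

theorem EE_mono {s g : ℝ} (hs0 : 0 ≤ s) (hs1 : s ≤ 1) (hg0 : 0 ≤ g) (hg1 : g ≤ 1) (U : Finset E)
    {F F' : Finset E → Finset E → ℝ} (h : ∀ S G, S ⊆ U → G ⊆ S → F S G ≤ F' S G) :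
    EE s g U F ≤ EE s g U F' :=
  tn_mono hs0 hs1 U fun S hS => tn_mono hg0 hg1 S fun G hG => h S G hS hG

theorem EE_add (s g : ℝ) (U : Finset E) (F F' : Finset E → Finset E → ℝ) :
    EE s g U (fun S G => F S G + F' S G) = EE s g U F + EE s g U F' := by
  unfold EE
  rw [← tn_add]
  exact tn_congr _ fun S _ => tn_add _ _ _ _

theorem EE_mul (s g : ℝ) (U : Finset E) (c : ℝ) (F : Finset E → Finset E → ℝ) :
    EE s g U (fun S G => c * F S G) = c * EE s g U F := by
  unfold EE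
  rw [← tn_mul]
  exact tn_congr _ fun S _ => tn_mul _ _ _ _

theorem mink_pos {s g : ℝ} (hs0 : 0 ≤ s) (hs1 : s ≤ 1) (hg0 : 0 ≤ g) (hg1 : g ≤ 1)
    (U : Finset E) (n : ℕ) {f h : Finset E → Finset E → ℝ} (hf : ∀ S G, 0 ≤ f S G)
    (hh : ∀ S G, 0 ≤ h S G) {A B q : ℝ} (hA : 0 < A) (hB : 0 < B) (hq0 : 0 ≤ q) (hq1 : q ≤ 1)
    (h1 : EE s g U (fun S G => f S G ^ n) ≤ A ^ n)
    (h2 : EE s g U (fun S G => h S G ^ n) ≤ B ^ n) :
    EE s g U (fun S G => ((1 - q) * f S G + q * h S G) ^ n) ≤ ((1 - q) * A + q * B) ^ n := by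
  set C := (1 - q) * A + q * B with hC
  have hC0 : 0 < C := by
    rcases eq_or_lt_of_le hq0 with h | h
    · rw [hC, ← h]; simpa using hA
    · have : 0 ≤ (1 - q) * A := mul_nonneg (by linarith) hA.le
      have : 0 < q * B := mul_pos h hB
      rw [hC]; linarith
  have key : ∀ S G, ((1 - q) * f S G + q * h S G) ^ n ≤
      C ^ n * ((1 - q) * A / C / A ^ n) * f S G ^ n +
        C ^ n * (q * B / C / B ^ n) * h S G ^ n := by
    intro S G
    have e1 : (1 - q) * f S G + q * h S G =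
        C * ((1 - q) * A / C * (f S G / A) + q * B / C * (h S G / B)) := by
      field_simp
    have w0 : 0 ≤ (1 - q) * A / C := div_nonneg (mul_nonneg (by linarith) hA.le) hC0.le
    have w1 : 0 ≤ q * B / C := div_nonneg (mul_nonneg hq0 hB.le) hC0.le
    have w2 : (1 - q) * A / C + q * B / C = 1 := by
      rw [← add_div, ← hC]
      exact div_self hC0.ne'
    have cv := (convexOn_pow n).2 (x := f S G / A) (y := h S G / B)
      (Set.mem_Ici.2 (div_nonneg (hf S G) hA.le)) (Set.mem_Ici.2 (div_nonneg (hh S G) hB.le))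
      w0 w1 w2
    simp only [smul_eq_mul] at cv
    rw [e1, mul_pow]
    refine (mul_le_mul_of_nonneg_left cv (pow_nonneg hC0.le n)).trans (le_of_eq ?_)
    rw [div_pow, div_pow]
    ring
  refine (EE_mono hs0 hs1 hg0 hg1 U fun S G _ _ => key S G).trans ?_
  rw [EE_add, EE_mul, EE_mul]
  have w0 : 0 ≤ C ^ n * ((1 - q) * A / C / A ^ n) :=
    mul_nonneg (pow_nonneg hC0.le n) (div_nonneg (div_nonneg (mul_nonneg (by linarith) hA.le)
      hC0.le) (pow_nonneg hA.le n))
  have w1 : 0 ≤ C ^ n * (q * B / C / B ^ n) :=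
    mul_nonneg (pow_nonneg hC0.le n) (div_nonneg (div_nonneg (mul_nonneg hq0 hB.le)
      hC0.le) (pow_nonneg hB.le n))
  refine (add_le_add (mul_le_mul_of_nonneg_left h1 w0) (mul_le_mul_of_nonneg_left h2 w1)).trans
    (le_of_eq ?_)
  have hAn : A ^ n ≠ 0 := (pow_pos hA n).ne'
  have hBn : B ^ n ≠ 0 := (pow_pos hB n).ne'
  have e2 : C ^ n * ((1 - q) * A / C / A ^ n) * A ^ n = C ^ n * ((1 - q) * A / C) := by
    field_simp
  have e3 : C ^ n * (q * B / C / B ^ n) * B ^ n = C ^ n * (q * B / C) := by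
    field_simp
  rw [e2, e3, ← mul_add, ← add_div, ← hC, div_self hC0.ne', mul_one]

theorem mink {s g : ℝ} (hs0 : 0 ≤ s) (hs1 : s ≤ 1) (hg0 : 0 ≤ g) (hg1 : g ≤ 1)
    (U : Finset E) (n : ℕ) {f h : Finset E → Finset E → ℝ} (hf : ∀ S G, 0 ≤ f S G)
    (hh : ∀ S G, 0 ≤ h S G) {A B q : ℝ} (hA : 0 ≤ A) (hB : 0 ≤ B) (hq0 : 0 ≤ q) (hq1 : q ≤ 1)
    (h1 : EE s g U (fun S G => f S G ^ n) ≤ A ^ n)
    (h2 : EE s g U (fun S G => h S G ^ n) ≤ B ^ n) :
    EE s g U (fun S G => ((1 - q) * f S G + q * h S G) ^ n) ≤ ((1 - q) * A + q * B) ^ n := by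
  set F : ℝ → ℝ := fun ε => ((1 - q) * (A + ε) + q * (B + ε)) ^ n with hF
  have key : ∀ ε : ℝ, 0 < ε →
      EE s g U (fun S G => ((1 - q) * f S G + q * h S G) ^ n) ≤ F ε := by
    intro ε hε
    refine mink_pos hs0 hs1 hg0 hg1 U n hf hh (add_pos_of_nonneg_of_pos hA hε)
      (add_pos_of_nonneg_of_pos hB hε) hq0 hq1 (h1.trans ?_) (h2.trans ?_)
    · exact pow_le_pow_left₀ hA (by linarith) n
    · exact pow_le_pow_left₀ hB (by linarith) n
  have hcont : Continuous F := by
    rw [hF]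
    fun_prop
  have hlim : Filter.Tendsto F (nhdsWithin 0 (Set.Ioi 0)) (nhds (F 0)) :=
    (hcont.tendsto 0).mono_left nhdsWithin_le_nhds
  have h7 := ge_of_tendsto hlim (Filter.eventually_of_mem self_mem_nhdsWithin
    fun ε hε => key ε hε)
  simpa [hF] using h7

/-- the scalar hypothesis -/
def HCs (n : ℕ) (s g t η : ℝ) : Prop := ∀ a b : ℝ, 0 ≤ a → 0 ≤ b →
  (1 - s) * (max a (η * b)) ^ (2 * n) + s * ((1 - g) * ((1 - t) * a + t * b) ^ (2 * n) +
    g * b ^ (2 * n)) ≤ ((1 - (s * g + s * (1 - g) * t)) * a ^ 2 +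
      (s * g + s * (1 - g) * t) * b ^ 2) ^ n

/-- **Hypercontractivity with a supremum over contexts.** -/
theorem hc {n : ℕ} {s g t η : ℝ} (hs0 : 0 ≤ s) (hs1 : s ≤ 1) (hg0 : 0 ≤ g) (hg1 : g ≤ 1)
    (ht0 : 0 ≤ t) (ht1 : t ≤ 1) (hη : 0 ≤ η) (hSc : HCs n s g t η) (U : Finset E) :
    ∀ φ : Finset E → ℝ, (∀ A, 0 ≤ φ A) →
    EE s g U (fun S G => Mx η t φ (U \ S) G (S \ G) ^ (2 * n)) ≤
      (tn (s * g + s * (1 - g) * t) U (fun T => φ T ^ 2)) ^ n := by
  have hq0 : 0 ≤ s * g + s * (1 - g) * t :=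
    add_nonneg (mul_nonneg hs0 hg0) (mul_nonneg (mul_nonneg hs0 (by linarith)) ht0)
  have hq1 : s * g + s * (1 - g) * t ≤ 1 := by
    have h1 : (1 - g) * t ≤ 1 - g := by nlinarith
    have h2 : s * (g + (1 - g) * t) ≤ 1 * 1 :=
      mul_le_mul hs1 (by linarith) (by have := mul_nonneg (by linarith : 0 ≤ 1 - g) ht0; linarith)
        (by norm_num)
    nlinarith
  induction U using Finset.induction_on with
  | empty =>
    intro φ hφ
    unfold EE
    rw [tn_empty, tn_empty, tn_empty]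
    have h1 : Mx η t φ (∅ \ ∅ : Finset E) ∅ (∅ \ ∅) = φ ∅ := by
      rw [empty_sdiff]
      refine le_antisymm (Mx_le fun Y hY => ?_) ?_
      · rw [subset_empty.1 hY, tn_empty]
        simp
      · refine le_trans (le_of_eq ?_) (le_Mx η t φ ∅ ∅ (subset_refl ∅))
        rw [tn_empty]
        simp
    beta_reduce
    rw [h1, pow_mul]
  | insert e U he ih =>
    intro φ hφ
    set q := s * g + s * (1 - g) * t with hq
    set φ1 : Finset E → ℝ := fun A => φ (insert e A) with hφ1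
    have hφ1' : ∀ A, 0 ≤ φ1 A := fun A => hφ _
    -- the three coordinate steps
    have mV : ∀ V G R : Finset E, e ∉ V → Mx η t φ (insert e V) G R ≤
        max (Mx η t φ V G R) (η * Mx η t φ1 V G R) := by
      intro V G R heV
      refine Mx_le fun Y hY => ?_
      by_cases heY : e ∈ Y
      · refine le_trans ?_ (le_max_right _ _)
        have h1 : Y.erase e ⊆ V := by
          intro x hx
          rcases mem_insert.1 (hY (mem_of_mem_erase hx)) with h | h
          · exact absurd h (ne_of_mem_erase hx)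
          · exact h
        have h2 := mul_le_mul_of_nonneg_left (le_Mx η t φ1 G R h1) hη
        have h3 : tn t R (fun N => φ1 (Y.erase e ∪ (G ∪ N))) =
            tn t R (fun N => φ (Y ∪ (G ∪ N))) := by
          refine tn_congr _ fun N _ => ?_
          show φ (insert e (Y.erase e ∪ (G ∪ N))) = _
          rw [← insert_union, insert_erase heY]
        have h4 : Y.card = (Y.erase e).card + 1 := (card_erase_add_one heY).symm
        rw [h3] at h2
        rw [h4, pow_succ]
        linarith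
      · refine le_trans (le_Mx η t φ G R ?_) (le_max_left _ _)
        intro x hx
        rcases mem_insert.1 (hY hx) with h | h
        · exact absurd (h ▸ hx) heY
        · exact h
    have mR : ∀ V G R : Finset E, e ∉ R → Mx η t φ V G (insert e R) ≤
        (1 - t) * Mx η t φ V G R + t * Mx η t φ1 V G R := by
      intro V G R heR
      refine Mx_le fun Y hY => ?_
      rw [tn_insert t heR]
      have a1 := mul_le_mul_of_nonneg_left (le_Mx η t φ G R hY) (by linarith : 0 ≤ 1 - t)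
      have a2 := mul_le_mul_of_nonneg_left (le_Mx η t φ1 G R hY) ht0
      have a3 : tn t R (fun N => φ (Y ∪ (G ∪ insert e N))) =
          tn t R (fun N => φ1 (Y ∪ (G ∪ N))) := by
        refine tn_congr _ fun N _ => ?_
        show _ = φ (insert e (Y ∪ (G ∪ N)))
        rw [union_insert, union_insert]
      rw [a3]
      nlinarith [a1, a2]
    have mG : ∀ V G R : Finset E, Mx η t φ V (insert e G) R = Mx η t φ1 V G R := by
      intro V G R
      unfold Mx
      congr 1
      funext Y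
      congr 1
      refine tn_congr _ fun N _ => ?_
      show _ = φ (insert e (Y ∪ (G ∪ N)))
      rw [insert_union, union_insert]
    set M := fun (ψ : Finset E → ℝ) (S G : Finset E) => Mx η t ψ (U \ S) G (S \ G) with hM
    have hM0 : ∀ S G, 0 ≤ M φ S G := fun S G => Mx_nonneg hη ht0 ht1 hφ _ _ _
    have hM1 : ∀ S G, 0 ≤ M φ1 S G := fun S G => Mx_nonneg hη ht0 ht1 hφ1' _ _ _
    have step : EE s g (insert e U) (fun S G => Mx η t φ (insert e U \ S) G (S \ G) ^ (2 * n)) ≤
        EE s g U (fun S G => ((1 - q) * M φ S G ^ 2 + q * M φ1 S G ^ 2) ^ n) := by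
      unfold EE
      rw [tn_insert s he, ← tn_mul, ← tn_mul, ← tn_add]
      refine tn_mono hs0 hs1 U fun S hS => ?_
      have heS : e ∉ S := fun h => he (hS h)
      rw [tn_insert g heS, ← tn_mul, ← tn_mul, ← tn_mul, ← tn_add, ← tn_mul, ← tn_add]
      refine tn_mono hg0 hg1 S fun G hG => ?_
      have heG : e ∉ G := fun h => heS (hG h)
      have s1 : insert e U \ S = insert e (U \ S) := insert_sdiff_of_notMem _ heS
      have s2 : insert e U \ insert e S = U \ S := by
        ext x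
        simp only [mem_sdiff, mem_insert, not_or]
        constructor
        · rintro ⟨h | h, h3, h4⟩
          · exact absurd h h3
          · exact ⟨h, h4⟩
        · rintro ⟨h, h4⟩
          exact ⟨Or.inr h, fun h5 => he (h5 ▸ h), h4⟩
      have s3 : insert e S \ G = insert e (S \ G) := insert_sdiff_of_notMem _ heG
      have s4 : insert e S \ insert e G = S \ G := by
        ext x
        simp only [mem_sdiff, mem_insert, not_or]
        constructor
        · rintro ⟨h | h, h3, h4⟩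
          · exact absurd h h3
          · exact ⟨h, h4⟩
        · rintro ⟨h, h4⟩
          exact ⟨Or.inr h, fun h5 => heS (h5 ▸ h), h4⟩
      beta_reduce
      rw [s1, s2, s3, s4, mG]
      have k1 : Mx η t φ (insert e (U \ S)) G (S \ G) ^ (2 * n) ≤
          (max (M φ S G) (η * M φ1 S G)) ^ (2 * n) :=
        pow_le_pow_left₀ (Mx_nonneg hη ht0 ht1 hφ _ _ _)
          (mV _ _ _ fun h => he (mem_sdiff.1 h).1) _
      have k2 : Mx η t φ (U \ S) G (insert e (S \ G)) ^ (2 * n) ≤
          ((1 - t) * M φ S G + t * M φ1 S G) ^ (2 * n) :=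
        pow_le_pow_left₀ (Mx_nonneg hη ht0 ht1 hφ _ _ _)
          (mR _ _ _ fun h => heS (mem_sdiff.1 h).1) _
      have k3 := hSc (M φ S G) (M φ1 S G) (hM0 S G) (hM1 S G)
      have k4 := mul_le_mul_of_nonneg_left k1 (by linarith : 0 ≤ 1 - s)
      have k5 := mul_le_mul_of_nonneg_left k2 (mul_nonneg hs0 (by linarith : 0 ≤ 1 - g))
      have k6 : Mx η t φ1 (U \ S) G (S \ G) = M φ1 S G := rfl
      rw [k6]
      rw [← hq] at k3
      nlinarith [k3, k4, k5]
    refine step.trans ?_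
    rw [tn_insert q he]
    refine mink hs0 hs1 hg0 hg1 U n (fun S G => sq_nonneg _) (fun S G => sq_nonneg _)
      (tn_nonneg hq0 hq1 U fun _ _ => sq_nonneg _) (tn_nonneg hq0 hq1 U fun _ _ => sq_nonneg _)
      hq0 hq1 ?_ ?_
    · have := ih φ hφ
      simp only [pow_mul] at this
      exact this
    · have := ih φ1 hφ1'
      simp only [pow_mul] at this
      exact this

/-- the event that some small context inside the complement of `S` makes `P` likely -/
def CEv (P : Finset E → Prop) (t : ℝ) (κ : ℕ) (δ : ℝ) (U S G : Finset E) : Prop :=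
  ∃ Y ⊆ U \ S, Y.card ≤ κ ∧
    δ ≤ tn t (S \ G) (open Classical in fun N => if P (Y ∪ (G ∪ N)) then 1 else 0)

open Classical in
/-- event form -/
theorem hc_event {n : ℕ} {s g t η : ℝ} (hs0 : 0 ≤ s) (hs1 : s ≤ 1) (hg0 : 0 ≤ g) (hg1 : g ≤ 1)
    (ht0 : 0 ≤ t) (ht1 : t ≤ 1) (hη : 0 ≤ η) (hη1 : η ≤ 1) (hS : HCs n s g t η) (U : Finset E)
    (P : Finset E → Prop) (κ : ℕ) {δ : ℝ} (hδ : 0 ≤ δ) :
    (η ^ κ * δ) ^ (2 * n) * EE s g U (fun S G => if CEv P t κ δ U S G then 1 else 0) ≤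
      (tn (s * g + s * (1 - g) * t) U (fun T => if P T then 1 else 0)) ^ n := by
  have h := hc hs0 hs1 hg0 hg1 ht0 ht1 hη hS U (fun A => if P A then (1 : ℝ) else 0)
    (fun A => by split_ifs <;> norm_num)
  have h2 : (fun T : Finset E => (if P T then (1 : ℝ) else 0) ^ 2) =
      fun T => if P T then (1 : ℝ) else 0 := by
    funext T
    split_ifs <;> simp
  simp only [h2] at h
  refine le_trans ?_ h
  rw [← EE_mul]
  refine EE_mono hs0 hs1 hg0 hg1 U fun S G _ _ => ?_
  have hm : 0 ≤ Mx η t (fun A => if P A then (1 : ℝ) else 0) (U \ S) G (S \ G) :=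
    Mx_nonneg hη ht0 ht1 (fun A => by split_ifs <;> norm_num) _ _ _
  split_ifs with hc
  · obtain ⟨Y, hY, hk, hd⟩ := hc
    rw [mul_one]
    refine pow_le_pow_left₀ (by positivity) ?_ _
    refine le_trans ?_ (le_Mx η t (fun A => if P A then (1 : ℝ) else 0) G (S \ G) hY)
    exact mul_le_mul (pow_le_pow_of_le_one hη hη1 hk) hd hδ (pow_nonneg hη _)
  · rw [mul_zero]
    positivity

end Vale.Agent.P331.H524
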