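import Vale.Agent.P331.H524.M

/-!
# The luck lemma
-/

set_option autoImplicit false
set_option linter.unusedSectionVars false

namespace Vale.Agent.P331.H524

open Finset

section

variable {E : Type*} [Fintype E] [DecidableEq E]

open Classical in
/-- `J*` for a random pool `G` inside `W`; the rest of `W` is the test set. -/
theorem jst {u lam : ℝ} (hu0 : 0 ≤ u) (hu1 : u ≤ 1) (hlam : 1 ≤ lam)
    (hlu : lam * (1 - u) ≤ u) (W : Finset E) (F : Finset E → Prop)
    (hF : ∀ A B, A ⊆ B → F A → F B) (Ev : Finset E → Prop) (K : Finset E → Finset E)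
    (hK : ∀ A ⊆ W, Ev A → K A ⊆ A ∧ F (K A)) (Q : Finset E → Prop) (κ : ℕ)
    (hQ : ∀ A ⊆ W, Ev A → ∀ U ⊆ K A, U.card ≤ κ → F ((W \ A) ∪ U) → Q ((W \ A) ∪ U)) :
    tn u W (fun G => if Ev (W \ G) then 1 else 0) ≤
      1 / lam ^ (κ + 1) + tn u W (fun X => if Q X then 1 else 0) := by
  set Kc : Finset E → Finset E := fun A => if Ev A then K A else A with hKc
  have hKc' : ∀ A ⊆ W, F A → Kc A ⊆ A ∧ F (Kc A) := by
    intro A hA hFA
    simp only [hKc]
    split_ifs with h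
    · exact hK A hA h
    · exact ⟨subset_refl _, hFA⟩
  obtain ⟨φ, hφ1, hφ2⟩ := Vale.Agent.P331.H379.jstar W F (fun A B h _ hA => hF A B h hA) Kc hKc'
  have hEvF : ∀ A ⊆ W, Ev A → F A := fun A hA h => hF _ _ (hK A hA h).1 (hK A hA h).2
  set w : Finset E → ℝ := fun G => u ^ G.card * (1 - u) ^ (W \ G).card with hw
  have hw0 : ∀ G, 0 ≤ w G := fun G => mul_nonneg (pow_nonneg hu0 _) (pow_nonneg (by linarith) _)
  set X : Finset E → Finset E := fun G => (W \ (W \ G)) ∪ φ (W \ G) with hX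
  set c := 1 / lam ^ (κ + 1) with hc
  have hlam0 : 0 < lam := by linarith
  have hc0 : 0 ≤ c := by positivity
  set T := W.powerset.filter (fun G => Ev (W \ G)) with hT
  set h : Finset E → ℝ := fun Y => w Y * (c + if Q Y then 1 else 0) with hh
  have hh0 : ∀ Y, 0 ≤ h Y := fun Y => mul_nonneg (hw0 Y) (add_nonneg hc0 (by
    split_ifs <;> norm_num))
  have hmem : ∀ G ∈ T, G ⊆ W ∧ Ev (W \ G) := fun G hG =>
    ⟨mem_powerset.1 (mem_filter.1 hG).1, (mem_filter.1 hG).2⟩
  have hφ : ∀ G ∈ T, φ (W \ G) ⊆ K (W \ G) ∧ F (X G) := by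
    intro G hG
    obtain ⟨h1, h2⟩ := hmem G hG
    have h3 := hφ1 (W \ G) sdiff_subset (hEvF _ sdiff_subset h2)
    have h4 : Kc (W \ G) = K (W \ G) := if_pos h2
    rw [h4] at h3
    exact h3
  -- the weights
  have hwt : ∀ G ∈ T, w G ≤ h (X G) := by
    intro G hG
    obtain ⟨h1, h2⟩ := hmem G hG
    obtain ⟨h3, h4⟩ := hφ G hG
    set U := φ (W \ G) with hU
    have hUW : U ⊆ W \ G := h3.trans (hK _ sdiff_subset h2).1
    have hXG : X G = G ∪ U := by
      simp only [hX]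
      rw [Finset.sdiff_sdiff_eq_self h1]
    have hdis : Disjoint G U := by
      rw [disjoint_left]
      intro x hx hxU
      exact (mem_sdiff.1 (hUW hxU)).2 hx
    have c1 : (X G).card = G.card + U.card := by
      rw [hXG, card_union_of_disjoint hdis]
    have c2 : (W \ G).card = (W \ X G).card + U.card := by
      have : W \ G = (W \ X G) ∪ U := by
        ext x
        rw [hXG]
        simp only [mem_sdiff, mem_union, not_or]
        constructor
        · rintro ⟨hx1, hx2⟩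
          by_cases hxU : x ∈ U
          · exact Or.inr hxU
          · exact Or.inl ⟨hx1, hx2, hxU⟩
        · rintro (⟨hx1, hx2, _⟩ | hxU)
          · exact ⟨hx1, hx2⟩
          · exact mem_sdiff.1 (hUW hxU)
      rw [this, card_union_of_disjoint]
      rw [disjoint_left]
      intro x hx hxU
      rw [hXG] at hx
      exact (mem_sdiff.1 hx).2 (mem_union_right _ hxU)
    have c3 : lam ^ U.card * w G ≤ w (X G) := by
      simp only [hw]
      rw [c1, c2, pow_add, pow_add]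
      have e1 : (lam * (1 - u)) ^ U.card ≤ u ^ U.card :=
        pow_le_pow_left₀ (mul_nonneg hlam0.le (by linarith)) hlu _
      rw [mul_pow] at e1
      have e2 : 0 ≤ u ^ G.card * (1 - u) ^ (W \ X G).card :=
        mul_nonneg (pow_nonneg hu0 _) (pow_nonneg (by linarith) _)
      have := mul_le_mul_of_nonneg_left e1 e2
      nlinarith [this]
    simp only [hh]
    by_cases hk : U.card ≤ κ
    · have h5 : Q (X G) := hQ _ sdiff_subset h2 U h3 hk h4
      rw [if_pos h5]
      have e3 : (1 : ℝ) ≤ lam ^ U.card := one_le_pow₀ hlam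
      nlinarith [hw0 G, hw0 (X G), mul_nonneg (sub_nonneg.2 e3) (hw0 G),
        mul_nonneg (hw0 (X G)) hc0]
    · have e4 : lam ^ (κ + 1) ≤ lam ^ U.card := pow_le_pow_right₀ hlam (by omega)
      have e5 : lam ^ (κ + 1) * w G ≤ w (X G) :=
        (mul_le_mul_of_nonneg_right e4 (hw0 G)).trans c3
      have e6 : w G ≤ w (X G) * c := by
        rw [hc, mul_one_div, le_div_iff₀ (by positivity), mul_comm]
        exact e5
      have e7 : 0 ≤ w (X G) * (if Q (X G) then (1 : ℝ) else 0) :=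
        mul_nonneg (hw0 _) (by split_ifs <;> norm_num)
      rw [mul_add]
      linarith
  have hinj : Set.InjOn X T := by
    intro G hG G' hG' he
    obtain ⟨h1, h2⟩ := hmem G (mem_coe.1 hG)
    obtain ⟨h1', h2'⟩ := hmem G' (mem_coe.1 hG')
    have h3 : W \ G = W \ G' := hφ2
      (show W \ G ∈ {A | A ⊆ W ∧ F A} from ⟨sdiff_subset, hEvF _ sdiff_subset h2⟩)
      (show W \ G' ∈ {A | A ⊆ W ∧ F A} from ⟨sdiff_subset, hEvF _ sdiff_subset h2'⟩) he
    rw [← Finset.sdiff_sdiff_eq_self h1, h3, Finset.sdiff_sdiff_eq_self h1']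
  have hsub : T.image X ⊆ W.powerset := by
    intro Y hY
    obtain ⟨G, hG, rfl⟩ := mem_image.1 hY
    obtain ⟨h1, h2⟩ := hmem G hG
    refine mem_powerset.2 (union_subset sdiff_subset ?_)
    exact ((hφ G hG).1.trans (hK _ sdiff_subset h2).1).trans sdiff_subset
  calc tn u W (fun G => if Ev (W \ G) then 1 else 0)
      = ∑ G ∈ W.powerset, w G * (if Ev (W \ G) then 1 else 0) := tn_eq_sum _ _ _
    _ = ∑ G ∈ T, w G := by
        rw [hT, sum_filter]
        refine sum_congr rfl fun G _ => ?_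
        split_ifs <;> simp
    _ ≤ ∑ G ∈ T, h (X G) := sum_le_sum hwt
    _ = ∑ Y ∈ T.image X, h Y := (sum_image hinj).symm
    _ ≤ ∑ Y ∈ W.powerset, h Y := sum_le_sum_of_subset_of_nonneg hsub fun Y _ _ => hh0 Y
    _ = tn u W (fun Y => c + if Q Y then 1 else 0) := (tn_eq_sum _ _ _).symm
    _ = _ := by rw [tn_add, tn_const]

variable {D : Par} {P : Finset E → Prop}

/-- the event of the luck lemma -/
def bd (D : Par) (P : Finset E → Prop) (i j : ℕ) (S : Finset E) : Prop :=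
  ∃ X ⊆ univ \ S, vio D P j S X ∧ ∀ X' ⊆ X, ¬ vio D P i S X'

theorem exists_min' {Q : Finset E → Prop} (U : Finset E) (hU : Q U) :
    ∃ X ⊆ U, Q X ∧ ∀ X' ⊂ X, ¬ Q X' := by
  induction U using Finset.strongInduction with
  | H U ih =>
    by_cases h : ∃ X' ⊂ U, Q X'
    · obtain ⟨X', hX', hP⟩ := h
      obtain ⟨X, hX, h1, h2⟩ := ih X' hX' hP
      exact ⟨X, hX.trans hX'.subset, h1, h2⟩
    · push Not at h
      exact ⟨U, subset_rfl, hU, h⟩

theorem ind01 {Q : Prop} [Decidable Q] : (0 : ℝ) ≤ if Q then 1 else 0 := by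
  split_ifs <;> norm_num

/-- some element outside of `T` is significant -/
def SgU (D : Par) (P : Finset E → Prop) (i : ℕ) (T S G : Finset E) : Prop :=
  ∃ f ∈ univ \ T, Sg P D.t (D.κ i) (D.δ i) f S G

/-- restricting to the elements of `T`: the price is the significance of an element outside -/
theorem ff_inter (hP : ∀ A B, A ⊆ B → P A → P B) (hg0 : 0 ≤ D.g) (hg1 : D.g ≤ 1)
    (ht0 : 0 ≤ D.t) (ht1 : D.t ≤ 1) {i : ℕ} (ha : 0 ≤ D.a i) (T S K : Finset E)
    (hK : K ⊆ univ \ S) :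
    ff D P i S (K ∩ T) ≤ ff D P i S K + tn D.g S (open Classical in fun G =>
      if SgU D P i T S G then 1 else 0) := by
  classical
  unfold ff
  rw [← tn_add]
  refine tn_mono hg0 hg1 S fun G _ => ?_
  by_cases h1 : hg D P i S G (K ∩ T)
  · rw [if_pos h1]
    exact add_nonneg (by split_ifs <;> norm_num) ind01
  · rw [if_neg h1]
    by_cases h2 : hg D P i S G K
    · obtain ⟨Y0, hY0, hg0'⟩ := h2
      obtain ⟨Y, hY, hgY, hmin⟩ := exists_min' (Q := good D P i S G) Y0 hg0'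
      obtain ⟨f, hfY, hfT⟩ : ∃ f ∈ Y, f ∉ T := by
        by_contra h3
        push Not at h3
        exact h1 ⟨Y, subset_inter (hY.trans hY0) h3, hgY⟩
      have h4 : SgU D P i T S G :=
        ⟨f, mem_sdiff.2 ⟨mem_univ f, hfT⟩, Y.erase f,
          (erase_subset f Y).trans ((hY.trans hY0).trans hK),
          (card_le_card (erase_subset f Y)).trans hgY.1,
          sig_of_good hP ht0 ht1 ha hfY hgY (hmin _ (erase_ssubset hfY))⟩
      rw [if_pos h4]
      have : (0 : ℝ) ≤ if hg D P i S G K then 0 else 1 := by split_ifs <;> norm_num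
      linarith
    · rw [if_neg h2]
      have : (0 : ℝ) ≤ if SgU D P i T S G then 1 else 0 := ind01
      linarith

/-- **Lemma L** -/
theorem lemL {n : ℕ} {η g1 t1 t2 ρ u ρ' u' ρ'' A q lam lam0 α a : ℝ}
    (hP : ∀ A B, A ⊆ B → P A → P B) (hs0 : 0 ≤ D.s) (hs1 : D.s ≤ 1)
    (hg0 : 0 ≤ D.g) (hg1 : D.g ≤ 1) (ht0 : 0 ≤ D.t) (ht1 : D.t ≤ 1) (hη : 0 < η) (hη1 : η ≤ 1)
    (hSc : HCs n D.s D.g D.t η)
    (hg10 : 0 ≤ g1) (hg11 : g1 ≤ 1) (ht10 : 0 ≤ t1) (ht11 : t1 ≤ 1) (ht20 : 0 ≤ t2)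
    (ht21 : t2 ≤ 1) (hρ0 : 0 ≤ ρ) (hρ1 : ρ ≤ 1) (hu0 : 0 ≤ u) (hu1 : u ≤ 1)
    (hA0 : 0 ≤ A) (hA1 : A ≤ 1) (hq0 : 0 ≤ q) (hq1 : q ≤ 1)
    (e1 : (1 - D.g) * g1 = D.g) (e2 : (1 - g1) * t1 = D.t)
    (e3 : g1 + (1 - g1) * t2 = D.t) (e4 : ρ * (1 - g1) = ρ') (e5 : (1 - ρ') * u' = ρ * g1)
    (e6 : (1 - ρ') * u' = D.s * D.g) (e7 : (1 - D.s * D.g) * ρ'' = ρ')
    (e8 : (1 - ρ'') * u = A) (e9 : (1 - A) * q = ρ'')
    (e10 : D.s * (1 - D.g) = ρ) (e11 : (1 - ρ) * u = D.s * D.g)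
    (hS : HS ((1 - A) * q) A t1 t2 lam) (hl : 1 ≤ lam)
    (hl0 : 1 ≤ lam0) (hlu : lam0 * (1 - u) ≤ u)
    {i j : ℕ} (hai : 0 < D.a i) (haj : 0 < D.a j) (hτi : 0 < D.τ i) (hτj : 0 < D.τ j)
    (hα : 0 < α) (hα1 : α ≤ 1) (ha : 0 < a) (hβ : 4 * a ≤ D.a i / (D.κ i + 1))
    (hτ : (D.τ j + D.a j / α) / a ≤ D.τ i / (D.Z i + 1) / 4)
    (T : Finset E) (hT : T.card ≤ D.Z i) :
    tn D.s univ (open Classical in fun S => if bd D P i j S then 1 else 0) ≤
      4 / (D.τ i / (D.Z i + 1)) * (1 / lam0 ^ (D.κ i + 1) +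
        2 / (D.a i / (D.κ i + 1)) * (2 ^ 16 * (lam ^ D.κ j * α) ^ 7 / a ^ 16)) +
      2 / (D.τ i / (D.Z i + 1)) * ∑ f ∈ univ \ T,
        (1 / (η ^ D.κ i * D.δ i)) ^ (2 * n) * J D P f ^ n := by
  classical
  set τ' := D.τ i / (D.Z i + 1) with hτ'
  have hτ'0 : 0 < τ' := by positivity
  set β := D.a i / (D.κ i + 1) with hβd
  have hβ0 : 0 < β := by positivity
  have hδ : 0 < D.δ i := by unfold Par.δ; positivity
  -- the choice
  have hch : ∀ S : Finset E, ∃ K : Finset E, bd D P i j S →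
      K ⊆ univ \ S ∧ vio D P j S K ∧ ∀ X' ⊆ K, ¬ vio D P i S X' := by
    intro S
    by_cases h : bd D P i j S
    · obtain ⟨K, hK⟩ := h
      exact ⟨K, fun _ => hK⟩
    · exact ⟨∅, fun h2 => absurd h2 h⟩
  choose K hK using hch
  obtain ⟨Ev1, hEv1⟩ : ∃ Ev1 : Finset E → Prop, ∀ S, Ev1 S ↔
      (bd D P i j S ∧ τ' / 2 ≤ ff D P i S (K S)) := ⟨_, fun _ => Iff.rfl⟩
  obtain ⟨Ev2, hEv2⟩ : ∃ Ev2 : Finset E → Prop, ∀ S, Ev2 S ↔
      τ' / 2 ≤ tn D.g S (fun G => if SgU D P i T S G then 1 else 0) := ⟨_, fun _ => Iff.rfl⟩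
  have hcase : ∀ S, bd D P i j S → Ev1 S ∨ Ev2 S := by
    intro S hS'
    obtain ⟨k1, k2, k3⟩ := hK S hS'
    have h1 := k3 (K S ∩ T) inter_subset_left
    have h2 : (K S ∩ T).card ≤ D.Z i := (card_le_card inter_subset_right).trans hT
    have h3 : τ' < ff D P i S (K S ∩ T) := by
      have h4 : D.τ i / ((K S ∩ T).card + 1) < ff D P i S (K S ∩ T) := by
        by_contra h5
        exact h1 ⟨h2, not_lt.1 h5⟩
      refine lt_of_le_of_lt ?_ h4
      rw [hτ']
      refine div_le_div_of_nonneg_left hτi.le (by positivity) ?_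
      have : ((K S ∩ T).card : ℝ) ≤ D.Z i := by exact_mod_cast h2
      linarith
    have h4 := ff_inter hP hg0 hg1 ht0 ht1 hai.le T S (K S) k1
    by_cases h5 : τ' / 2 ≤ ff D P i S (K S)
    · exact Or.inl ((hEv1 S).2 ⟨hS', h5⟩)
    · right
      rw [hEv2]
      linarith [not_le.1 h5]
  have hsplit : tn D.s univ (fun S => if bd D P i j S then (1 : ℝ) else 0) ≤
      tn D.s univ (fun S => if Ev1 S then (1 : ℝ) else 0) +
        tn D.s univ (fun S => if Ev2 S then (1 : ℝ) else 0) := by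
    rw [← tn_add]
    refine tn_mono hs0 hs1 _ fun S _ => ?_
    by_cases h : bd D P i j S
    · rw [if_pos h]
      rcases hcase S h with h1 | h1
      · rw [if_pos h1]
        have : (0 : ℝ) ≤ if Ev2 S then 1 else 0 := ind01
        linarith
      · rw [if_pos h1]
        have : (0 : ℝ) ≤ if Ev1 S then 1 else 0 := ind01
        linarith
    · rw [if_neg h]
      exact add_nonneg ind01 ind01
  -- the second event
  have hsecond : tn D.s univ (fun S => if Ev2 S then (1 : ℝ) else 0) ≤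
      2 / τ' * ∑ f ∈ univ \ T, (1 / (η ^ D.κ i * D.δ i)) ^ (2 * n) * J D P f ^ n := by
    have h1 : τ' / 2 * tn D.s univ (fun S => if Ev2 S then (1 : ℝ) else 0) ≤
        EE D.s D.g univ (fun S G => ∑ f ∈ univ \ T,
          if Sg P D.t (D.κ i) (D.δ i) f S G then 1 else 0) := by
      unfold EE
      rw [← tn_mul]
      refine tn_mono hs0 hs1 _ fun S _ => ?_
      have h2 : tn D.g S (fun G => if SgU D P i T S G then (1 : ℝ) else 0) ≤
          tn D.g S (fun G => ∑ f ∈ univ \ T,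
            if Sg P D.t (D.κ i) (D.δ i) f S G then 1 else 0) := by
        refine tn_mono hg0 hg1 _ fun G _ => ?_
        by_cases h : SgU D P i T S G
        · rw [if_pos h]
          obtain ⟨f, hf, hf2⟩ := h
          have h3 := single_le_sum (f := fun f => if Sg P D.t (D.κ i) (D.δ i) f S G
            then (1 : ℝ) else 0) (fun _ _ => ind01) hf
          simp only [if_pos hf2] at h3
          exact h3
        · rw [if_neg h]
          exact sum_nonneg fun _ _ => ind01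
      by_cases h : Ev2 S
      · rw [if_pos h, mul_one]
        exact le_trans ((hEv2 S).1 h) h2
      · rw [if_neg h, mul_zero]
        exact tn_nonneg hg0 hg1 _ fun _ _ => sum_nonneg fun _ _ => ind01
    have h2 : EE D.s D.g univ (fun S G => ∑ f ∈ univ \ T,
          if Sg P D.t (D.κ i) (D.δ i) f S G then (1 : ℝ) else 0) =
        ∑ f ∈ univ \ T, EE D.s D.g univ (fun S G =>
          if Sg P D.t (D.κ i) (D.δ i) f S G then (1 : ℝ) else 0) := by
      unfold EE
      rw [← tn_sum]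
      refine tn_congr _ fun S _ => ?_
      rw [tn_sum]
    have h3 : EE D.s D.g univ (fun S G => ∑ f ∈ univ \ T,
          if Sg P D.t (D.κ i) (D.δ i) f S G then (1 : ℝ) else 0) ≤
        ∑ f ∈ univ \ T, (1 / (η ^ D.κ i * D.δ i)) ^ (2 * n) * J D P f ^ n := by
      rw [h2]
      exact sum_le_sum fun f _ => sg_bound hs0 hs1 hg0 hg1 ht0 ht1 hη hη1 hSc hδ f
    have h4 := h1.trans h3
    have h5 : 2 / τ' = (τ' / 2)⁻¹ := by rw [inv_div]
    rw [h5, ← div_eq_inv_mul, le_div_iff₀ (by positivity), mul_comm]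
    exact h4
  -- the first event
  obtain ⟨B, hB⟩ : ∃ B : Finset E → Finset E → Prop, ∀ S G, B S G ↔
      ((bd D P i j S ∧ τ' / 2 ≤ ff D P i S (K S)) ∧ ¬ hg D P i S G (K S) ∧
        FR P g1 t1 α a (D.κ j) (S \ G) (K S)) := ⟨_, fun _ _ => Iff.rfl⟩
  have hfirst1 : τ' / 4 * tn D.s univ (fun S => if Ev1 S then (1 : ℝ) else 0) ≤
      tn D.s univ (fun S => tn D.g S (fun G => if B S G then (1 : ℝ) else 0)) := by
    rw [← tn_mul]
    refine tn_mono hs0 hs1 _ fun S _ => ?_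
    by_cases h : Ev1 S
    · rw [if_pos h, mul_one]
      obtain ⟨hb, hff⟩ := (hEv1 S).1 h
      obtain ⟨k1, k2, k3⟩ := hK S hb
      have h1 := transfer (P := P) hg0 hg1 ht0 ht1 hg10 hg11 ht10 ht11 e1 e2 hα ha haj.le
        hτj.le k2
      have h2 : ff D P i S (K S) ≤ tn D.g S (fun G => if B S G then (1 : ℝ) else 0) +
          tn D.g S (fun G => if FR P g1 t1 α a (D.κ j) (S \ G) (K S) then 0 else 1) := by
        unfold ff
        rw [← tn_add]
        refine tn_mono hg0 hg1 _ fun G _ => ?_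
        by_cases h3 : hg D P i S G (K S)
        · rw [if_pos h3]
          exact add_nonneg ind01 (by split_ifs <;> norm_num)
        · rw [if_neg h3]
          by_cases h4 : FR P g1 t1 α a (D.κ j) (S \ G) (K S)
          · rw [if_pos h4]
            have h5 : B S G := (hB S G).2 ⟨⟨hb, hff⟩, h3, h4⟩
            rw [if_pos h5]
            norm_num
          · rw [if_neg h4]
            have : (0 : ℝ) ≤ if B S G then 1 else 0 := ind01
            linarith
      linarith
    · rw [if_neg h, mul_zero]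
      exact tn_nonneg hg0 hg1 _ fun _ _ => ind01
  have hfirst2 : tn D.s univ (fun S => tn D.g S (fun G => if B S G then (1 : ℝ) else 0)) =
      tn ρ univ (fun R => tn u (univ \ R) (fun G => if B (R ∪ G) G then (1 : ℝ) else 0)) := by
    rw [← tn_nest e10 e11 univ (fun R G => if B (R ∪ G) G then (1 : ℝ) else 0)]
    refine tn_congr _ fun S _ => tn_congr _ fun G hG => ?_
    show _ = if B (S \ G ∪ G) G then (1 : ℝ) else 0
    rw [sdiff_union_of_subset hG]
  have hfirst3 : tn ρ univ (fun R => tn u (univ \ R) (fun G =>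
        if B (R ∪ G) G then (1 : ℝ) else 0)) ≤
      1 / lam0 ^ (D.κ i + 1) + 2 / β * (2 ^ 16 * (lam ^ D.κ j * α) ^ 7 / a ^ 16) := by
    have h1 : ∀ R : Finset E, tn u (univ \ R) (fun G => if B (R ∪ G) G then (1 : ℝ) else 0) ≤
        1 / lam0 ^ (D.κ i + 1) + tn u (univ \ R) (fun X =>
          if NEv P g1 t1 α a D.t β (D.κ j) R X then 1 else 0) := by
      intro R
      set W := univ \ R with hW
      have hdis : ∀ G ⊆ W, (R ∪ G) \ G = R := by
        intro G hG
        rw [union_sdiff_right]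
        refine sdiff_eq_self_of_disjoint ?_
        rw [disjoint_left]
        intro x hx hxG
        exact (mem_sdiff.1 (hG hxG)).2 hx
      have h2 := jst hu0 hu1 hl0 hlu W (FR P g1 t1 α a (D.κ j) R)
        (fun A B h hA => FR_mono hg10 hg11 h hA) (fun A => B (R ∪ (W \ A)) (W \ A))
        (fun A => K (R ∪ (W \ A))) (fun A hA hE => ?_)
        (fun X => NEv P g1 t1 α a D.t β (D.κ j) R X) (D.κ i)
        (fun A hA hE U hU hUk hFU => ?_)
      · refine le_trans (le_of_eq ?_) h2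
        refine tn_congr _ fun G hG => ?_
        show _ = if B (R ∪ (W \ (W \ G))) (W \ (W \ G)) then (1 : ℝ) else 0
        rw [Finset.sdiff_sdiff_eq_self hG]
      · obtain ⟨⟨hb, -⟩, -, hF⟩ := (hB _ _).1 hE
        obtain ⟨k1, -, -⟩ := hK _ hb
        rw [hdis _ sdiff_subset] at hF
        refine ⟨fun x hx => ?_, hF⟩
        have hx2 := (mem_sdiff.1 (k1 hx)).2
        by_contra hxA
        refine hx2 ?_
        by_cases hxR : x ∈ R
        · exact mem_union_left _ hxR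
        · exact mem_union_right _ (mem_sdiff.2 ⟨mem_sdiff.2 ⟨mem_univ x, hxR⟩, hxA⟩)
      · obtain ⟨-, hng, -⟩ := (hB _ _).1 hE
        have h3 : ¬ good D P i (R ∪ (W \ A)) (W \ A) U := fun h => hng ⟨U, hU, h⟩
        have h4 : D.a i / (U.card + 1) < fl P D.t ((R ∪ (W \ A)) \ (W \ A)) (U ∪ (W \ A)) := by
          by_contra h5
          exact h3 ⟨hUk, not_lt.1 h5⟩
        rw [hdis _ sdiff_subset, union_comm U] at h4
        refine ⟨hFU, le_trans ?_ h4.le⟩
        rw [hβd]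
        refine div_le_div_of_nonneg_left hai.le (by positivity) ?_
        have : (U.card : ℝ) ≤ D.κ i := by exact_mod_cast hUk
        linarith
    refine (tn_mono hρ0 hρ1 _ fun R _ => h1 R).trans ?_
    rw [tn_add, tn_const]
    have hsg0 : 0 ≤ D.s * D.g := mul_nonneg hs0 hg0
    have hsg1 : D.s * D.g ≤ 1 := by nlinarith
    have h2 := natural (P := P) hs0 hs1 hP ht0 ht1 hg10 hg11 ht10 ht11 ht20 ht21 hρ0 hρ1 hu0 hu1
      hsg0 hsg1 hA0 hA1 hq0 hq1 e3 e4 e5 e6 e7 e8 e9 hS hl (D.κ j) hα hα1 ha hβ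
    linarith
  have hfirst : tn D.s univ (fun S => if Ev1 S then (1 : ℝ) else 0) ≤
      4 / τ' * (1 / lam0 ^ (D.κ i + 1) +
        2 / β * (2 ^ 16 * (lam ^ D.κ j * α) ^ 7 / a ^ 16)) := by
    have h5 : 4 / τ' = (τ' / 4)⁻¹ := by rw [inv_div]
    rw [h5, ← div_eq_inv_mul, le_div_iff₀ (by positivity), mul_comm]
    refine hfirst1.trans ?_
    rw [hfirst2]
    exact hfirst3
  linarith

end

end Vale.Agent.P331.H524
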