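import Vale.Agent.P331.H524.Q
import Vale.Agent.P331.H524.C
import Vale.Agent.P331.H379.JStar

/-!
# Violations of a target and the significance of their elements
-/

set_option autoImplicit false
set_option linter.unusedSectionVars false

namespace Vale.Agent.P331.H524

open Finset

/-- Parameters: rates `s`, `g`, `t` of the sample, of the pool in the sample and of the noise in
the rest of the sample; sizes and thresholds of the levels. -/
structure Par where
  s : ℝ
  g : ℝ
  t : ℝ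
  κ : ℕ → ℕ
  a : ℕ → ℝ
  Z : ℕ → ℕ
  τ : ℕ → ℝ

section

variable {E : Type*} [Fintype E] [DecidableEq E]

theorem tn_comm (r q : ℝ) (S T : Finset E) (F : Finset E → Finset E → ℝ) :
    tn r S (fun A => tn q T (fun B => F A B)) = tn q T (fun B => tn r S (fun A => F A B)) := by
  have h : ∀ A, tn q T (fun B => F A B) =
      ∑ B ∈ T.powerset, (q ^ B.card * (1 - q) ^ (T \ B).card) * F A B := fun A => tn_eq_sum _ _ _
  simp only [h]
  rw [tn_sum]
  simp only [tn_mul]
  rw [tn_eq_sum q T]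

open Classical in
/-- `b` is pivotal at `A` -/
def pv (P : Finset E → Prop) (b : E) (A : Finset E) : Prop := P (insert b A) ∧ ¬ P (A.erase b)

variable (D : Par) (P : Finset E → Prop)

open Classical in
/-- probability that the noise does not complete `A` -/
noncomputable def fl (t : ℝ) (R A : Finset E) : ℝ :=
  tn t R (fun N => if P (A ∪ N) then 0 else 1)

/-- `Y` is good for the pool `G` -/
def good (j : ℕ) (S G Y : Finset E) : Prop :=
  Y.card ≤ D.κ j ∧ fl P D.t (S \ G) (Y ∪ G) ≤ D.a j / (Y.card + 1)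

/-- the pool `G` leaves a good set in `X` -/
def hg (j : ℕ) (S G X : Finset E) : Prop := ∃ Y ⊆ X, good D P j S G Y

open Classical in
/-- probability that the pool leaves no good set -/
noncomputable def ff (j : ℕ) (S X : Finset E) : ℝ :=
  tn D.g S (fun G => if hg D P j S G X then 0 else 1)

/-- violation -/
def vio (j : ℕ) (S X : Finset E) : Prop :=
  X.card ≤ D.Z j ∧ ff D P j S X ≤ D.τ j / (X.card + 1)

/-- the significance threshold -/
noncomputable def Par.δ (j : ℕ) : ℝ := D.a j / (D.κ j + 1) ^ 2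

/-- the event that `b` is significant in some context -/
def Sg (t : ℝ) (κ : ℕ) (δ : ℝ) (b : E) (S G : Finset E) : Prop :=
  CEv (pv P b) t κ δ univ S G

variable {D P}

theorem fl_nonneg {t : ℝ} (h0 : 0 ≤ t) (h1 : t ≤ 1) (R A : Finset E) : 0 ≤ fl P t R A :=
  tn_nonneg h0 h1 R fun _ _ => by split_ifs <;> norm_num

theorem fl_le_one {t : ℝ} (h0 : 0 ≤ t) (h1 : t ≤ 1) (R A : Finset E) : fl P t R A ≤ 1 :=
  tn_le_const h0 h1 R fun _ _ => by split_ifs <;> norm_num

/-- Removing an element from a good set, which makes it not good: the element is significant. -/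
theorem sig_of_good (hP : ∀ A B, A ⊆ B → P A → P B) (ht0 : 0 ≤ D.t) (ht1 : D.t ≤ 1) {j : ℕ}
    (ha : 0 ≤ D.a j) {S G Y : Finset E} {b : E} (hb : b ∈ Y) (h1 : good D P j S G Y)
    (h2 : ¬ good D P j S G (Y.erase b)) :
    D.δ j ≤ tn D.t (S \ G)
      (open Classical in fun N => if pv P b (Y.erase b ∪ (G ∪ N)) then 1 else 0) := by
  classical
  obtain ⟨k1, k2⟩ := h1
  have hc : (Y.erase b).card + 1 = Y.card := card_erase_add_one hb
  have k3 : D.a j / ((Y.erase b).card + 1) < fl P D.t (S \ G) (Y.erase b ∪ G) := by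
    by_contra h
    exact h2 ⟨by omega, not_lt.1 h⟩
  have e1 : fl P D.t (S \ G) (Y.erase b ∪ G) - fl P D.t (S \ G) (Y ∪ G) ≤
      tn D.t (S \ G) (fun N => if pv P b (Y.erase b ∪ (G ∪ N)) then 1 else 0) := by
    unfold fl
    rw [← tn_sub]
    refine tn_mono ht0 ht1 _ fun N _ => ?_
    by_cases h3 : P (Y ∪ G ∪ N)
    · rw [if_pos h3]
      by_cases h4 : P (Y.erase b ∪ G ∪ N)
      · rw [if_pos h4]
        split_ifs <;> norm_num
      · have h5 : pv P b (Y.erase b ∪ (G ∪ N)) := by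
          refine ⟨?_, fun h6 => h4 (hP _ _ ?_ h6)⟩
          · refine hP _ _ (fun x hx => ?_) h3
            simp only [mem_union, mem_insert, mem_erase] at hx ⊢
            by_cases hxb : x = b
            · exact Or.inl hxb
            · tauto
          · intro x hx
            simp only [mem_union, mem_erase] at hx ⊢
            tauto
        rw [if_neg h4, if_pos h5]
        norm_num
    · rw [if_neg h3]
      have h4 : ¬ P (Y.erase b ∪ G ∪ N) := fun h => h3 (hP _ _ (by
        intro x hx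
        simp only [mem_union, mem_erase] at hx ⊢
        tauto) h)
      rw [if_neg h4]
      split_ifs <;> norm_num
  have hY : (1 : ℝ) ≤ Y.card := by
    have : 1 ≤ Y.card := card_pos.2 ⟨b, hb⟩
    exact_mod_cast this
  have hc' : ((Y.erase b).card : ℝ) + 1 = Y.card := by exact_mod_cast hc
  rw [hc'] at k3
  have hk : (Y.card : ℝ) ≤ D.κ j := by exact_mod_cast k1
  have e2 : D.δ j ≤ D.a j / Y.card - D.a j / (Y.card + 1) := by
    have e3 : D.a j / Y.card - D.a j / (Y.card + 1) = D.a j / (Y.card * (Y.card + 1)) := by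
      field_simp
      ring
    rw [e3]
    unfold Par.δ
    refine div_le_div_of_nonneg_left ha (by positivity) ?_
    nlinarith
  linarith

/-- the set of the elements of a minimal violating set is significant -/
theorem sig_of_min (hP : ∀ A B, A ⊆ B → P A → P B) (hg0 : 0 ≤ D.g) (hg1 : D.g ≤ 1)
    (ht0 : 0 ≤ D.t) (ht1 : D.t ≤ 1) {j : ℕ} (ha : 0 ≤ D.a j) (hτ : 0 ≤ D.τ j)
    {S X : Finset E} {b : E} (hX : X ⊆ univ \ S) (hb : b ∈ X) (h1 : vio D P j S X)
    (h2 : ∀ X' ⊂ X, ¬ vio D P j S X') :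
    D.τ j / (D.Z j + 1) ^ 2 ≤ tn D.g S (open Classical in fun G =>
      if Sg P D.t (D.κ j) (D.δ j) b S G then 1 else 0) := by
  classical
  obtain ⟨k1, k2⟩ := h1
  have hc : (X.erase b).card + 1 = X.card := card_erase_add_one hb
  have k3 : D.τ j / ((X.erase b).card + 1) < ff D P j S (X.erase b) := by
    by_contra h
    exact h2 _ (erase_ssubset hb) ⟨by omega, not_lt.1 h⟩
  have e1 : ff D P j S (X.erase b) - ff D P j S X ≤ tn D.g S (fun G =>
      if Sg P D.t (D.κ j) (D.δ j) b S G then 1 else 0) := by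
    unfold ff
    rw [← tn_sub]
    refine tn_mono hg0 hg1 _ fun G _ => ?_
    by_cases h3 : hg D P j S G X
    · rw [if_pos h3]
      by_cases h4 : hg D P j S G (X.erase b)
      · rw [if_pos h4]
        split_ifs <;> norm_num
      · obtain ⟨Y, hY, hgY⟩ := h3
        have hbY : b ∈ Y := by
          by_contra hbY
          exact h4 ⟨Y, subset_erase.2 ⟨hY, hbY⟩, hgY⟩
        have h5 : ¬ good D P j S G (Y.erase b) := fun h =>
          h4 ⟨Y.erase b, erase_subset_erase b hY, h⟩
        have h6 : Sg P D.t (D.κ j) (D.δ j) b S G :=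
          ⟨Y.erase b, (erase_subset b Y).trans (hY.trans hX),
            (card_le_card (erase_subset b Y)).trans hgY.1,
            sig_of_good hP ht0 ht1 ha hbY hgY h5⟩
        rw [if_neg h4, if_pos h6]
        norm_num
    · rw [if_neg h3]
      have h4 : ¬ hg D P j S G (X.erase b) := by
        rintro ⟨Y, hY, h⟩
        exact h3 ⟨Y, hY.trans (erase_subset b X), h⟩
      rw [if_neg h4]
      split_ifs <;> norm_num
  have hX1 : (1 : ℝ) ≤ X.card := by
    have : 1 ≤ X.card := card_pos.2 ⟨b, hb⟩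
    exact_mod_cast this
  have hc' : ((X.erase b).card : ℝ) + 1 = X.card := by exact_mod_cast hc
  rw [hc'] at k3
  have hk : (X.card : ℝ) ≤ D.Z j := by exact_mod_cast k1
  have e2 : D.τ j / (D.Z j + 1) ^ 2 ≤ D.τ j / X.card - D.τ j / (X.card + 1) := by
    have e3 : D.τ j / X.card - D.τ j / (X.card + 1) = D.τ j / (X.card * (X.card + 1)) := by
      field_simp
      ring
    rw [e3]
    refine div_le_div_of_nonneg_left hτ (by positivity) ?_
    nlinarith
  linarith

/-- the annealed influence -/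
noncomputable def J (D : Par) (P : Finset E → Prop) (b : E) : ℝ :=
  tn (D.s * D.g + D.s * (1 - D.g) * D.t) univ
    (open Classical in fun T => if pv P b T then 1 else 0)

/-- the bound of the significance event -/
theorem sg_bound {n : ℕ} {η : ℝ} (hs0 : 0 ≤ D.s) (hs1 : D.s ≤ 1) (hg0 : 0 ≤ D.g)
    (hg1 : D.g ≤ 1) (ht0 : 0 ≤ D.t) (ht1 : D.t ≤ 1) (hη : 0 < η) (hη1 : η ≤ 1)
    (hS : HCs n D.s D.g D.t η) {κ : ℕ} {δ : ℝ} (hδ : 0 < δ) (b : E) :
    EE D.s D.g univ (open Classical in fun S G => if Sg P D.t κ δ b S G then 1 else 0) ≤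
      (1 / (η ^ κ * δ)) ^ (2 * n) * J D P b ^ n := by
  classical
  have h2 : 0 < (η ^ κ * δ) ^ (2 * n) := by positivity
  have h : (η ^ κ * δ) ^ (2 * n) *
      EE D.s D.g univ (fun S G => if Sg P D.t κ δ b S G then 1 else 0) ≤ J D P b ^ n := by
    unfold Sg J
    exact hc_event hs0 hs1 hg0 hg1 ht0 ht1 hη.le hη1 hS univ (pv P b) κ hδ.le
  have h3 : (1 / (η ^ κ * δ)) ^ (2 * n) * J D P b ^ n = J D P b ^ n / (η ^ κ * δ) ^ (2 * n) := by
    rw [one_div, inv_pow, ← div_eq_inv_mul]
  rw [h3, le_div_iff₀ h2, mul_comm]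
  exact h

/-- `b` lies in a minimal violating set outside of `S` -/
def mv (D : Par) (P : Finset E → Prop) (j : ℕ) (b : E) (S : Finset E) : Prop :=
  ∃ X ⊆ univ \ S, b ∈ X ∧ vio D P j S X ∧ ∀ X' ⊂ X, ¬ vio D P j S X'

/-- **Lemma R.** -/
theorem lemR {n : ℕ} {η : ℝ} (hP : ∀ A B, A ⊆ B → P A → P B) (hs0 : 0 ≤ D.s) (hs1 : D.s ≤ 1)
    (hg0 : 0 ≤ D.g) (hg1 : D.g ≤ 1) (ht0 : 0 ≤ D.t) (ht1 : D.t ≤ 1) (hη : 0 < η) (hη1 : η ≤ 1)
    (hS : HCs n D.s D.g D.t η) {j : ℕ} (ha : 0 < D.a j) (hτ : 0 < D.τ j) (b : E) :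
    tn D.s univ (open Classical in fun S => if mv D P j b S then 1 else 0) ≤
      (D.Z j + 1) ^ 2 / D.τ j * ((1 / (η ^ D.κ j * D.δ j)) ^ (2 * n) * J D P b ^ n) := by
  classical
  have hδ : 0 < D.δ j := by
    unfold Par.δ
    positivity
  have h1 := sg_bound (P := P) hs0 hs1 hg0 hg1 ht0 ht1 hη hη1 hS (κ := D.κ j) hδ b
  have h2 : D.τ j / (D.Z j + 1) ^ 2 * tn D.s univ (fun S =>
      if mv D P j b S then 1 else 0) ≤
      EE D.s D.g univ (fun S G => if Sg P D.t (D.κ j) (D.δ j) b S G then 1 else 0) := by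
    unfold EE
    rw [← tn_mul]
    refine tn_mono hs0 hs1 _ fun S _ => ?_
    split_ifs with h
    · obtain ⟨X, hX, hb, hv, hm⟩ := h
      rw [mul_one]
      exact sig_of_min hP hg0 hg1 ht0 ht1 ha.le hτ.le hX hb hv hm
    · rw [mul_zero]
      exact tn_nonneg hg0 hg1 _ fun G _ => by
        by_cases h : Sg P D.t (D.κ j) (D.δ j) b S G
        · simp [h]
        · simp [h]
  have h3 : 0 < D.τ j / (D.Z j + 1) ^ 2 := by positivity
  have h4 := h2.trans h1
  have h5 : ((D.Z j : ℝ) + 1) ^ 2 / D.τ j = (D.τ j / (D.Z j + 1) ^ 2)⁻¹ := by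
    rw [inv_div]
  rw [h5, ← div_eq_inv_mul, le_div_iff₀ h3, mul_comm]
  exact h4

end

end Vale.Agent.P331.H524
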