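import Vale.Agent.P331.H524.L

/-!
# The transfer to a smaller sample, and the natural estimate
-/

set_option autoImplicit false
set_option linter.unusedSectionVars false

namespace Vale.Agent.P331.H524

open Finset

section

variable {E : Type*} [Fintype E] [DecidableEq E]

variable (P : Finset E → Prop)

/-- some small subset of `A` is good for the pool `G` and the noise in `R` -/
def hy (t1 α : ℝ) (κ : ℕ) (R G A : Finset E) : Prop :=
  ∃ Y ⊆ A, Y.card ≤ κ ∧ fl P t1 R (Y ∪ G) ≤ α

open Classical in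
/-- the up-set of the sets which are good for most pools inside `R` -/
def FR (g1 t1 α a : ℝ) (κ : ℕ) (R A : Finset E) : Prop :=
  tn g1 R (fun G => if hy P t1 α κ (R \ G) G A then 0 else 1) ≤ a

/-- the event of the natural estimate -/
def NEv (g1 t1 α a t β : ℝ) (κ : ℕ) (R X : Finset E) : Prop :=
  FR P g1 t1 α a κ R X ∧ β ≤ fl P t R X

variable {P}

theorem hy_mono {t1 α : ℝ} {κ : ℕ} {R G A B : Finset E} (h : A ⊆ B) (hA : hy P t1 α κ R G A) :
    hy P t1 α κ R G B := by
  obtain ⟨Y, hY, h2⟩ := hA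
  exact ⟨Y, hY.trans h, h2⟩

theorem FR_mono {g1 t1 α a : ℝ} (h0 : 0 ≤ g1) (h1 : g1 ≤ 1) {κ : ℕ} {R A B : Finset E}
    (h : A ⊆ B) (hA : FR P g1 t1 α a κ R A) : FR P g1 t1 α a κ R B := by
  classical
  unfold FR at hA ⊢
  refine le_trans (tn_mono h0 h1 R fun G _ => ?_) hA
  by_cases h2 : hy P t1 α κ (R \ G) G A
  · rw [if_pos h2, if_pos (hy_mono h h2)]
  · rw [if_neg h2]
    split_ifs <;> norm_num

variable {D : Par}

/-- (a) transfer to the sample without the second pool -/
theorem transfer (hg0 : 0 ≤ D.g) (hg1 : D.g ≤ 1) (ht0 : 0 ≤ D.t) (ht1 : D.t ≤ 1) {g1 t1 : ℝ}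
    (hg10 : 0 ≤ g1) (hg11 : g1 ≤ 1) (ht10 : 0 ≤ t1) (ht11 : t1 ≤ 1)
    (e1 : (1 - D.g) * g1 = D.g) (e2 : (1 - g1) * t1 = D.t) {j : ℕ} {α a : ℝ} (hα : 0 < α)
    (ha : 0 < a) (haj : 0 ≤ D.a j) (hτj : 0 ≤ D.τ j) {S K : Finset E} (hv : vio D P j S K) :
    tn D.g S (open Classical in fun G2 => if FR P g1 t1 α a (D.κ j) (S \ G2) K then 0 else 1) ≤
      (D.τ j + D.a j / α) / a := by
  classical
  obtain ⟨-, hff⟩ := hv
  have hff2 : ff D P j S K ≤ D.τ j := by
    refine hff.trans (div_le_self hτj ?_)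
    have : (0 : ℝ) ≤ K.card := Nat.cast_nonneg _
    linarith
  -- the chosen good set
  have hch : ∀ G : Finset E, ∃ Y : Finset E, hg D P j S G K → Y ⊆ K ∧ good D P j S G Y := by
    intro G
    by_cases h : hg D P j S G K
    · obtain ⟨Y, hY⟩ := h
      exact ⟨Y, fun _ => hY⟩
    · exact ⟨∅, fun h2 => absurd h2 h⟩
  choose Yc hYc using hch
  set h : Finset E → ℝ := fun G => if hg D P j S G K then 0 else 1 with hh
  set k : Finset E → Finset E → ℝ := fun G N =>
    if hg D P j S G K then (if P (Yc G ∪ G ∪ N) then 0 else 1) else 0 with hk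
  have hk0 : ∀ G N, 0 ≤ k G N := by
    intro G N
    simp only [hk]
    split_ifs <;> norm_num
  have s1 : a * tn D.g S (fun G2 => if FR P g1 t1 α a (D.κ j) (S \ G2) K then 0 else 1) ≤
      tn D.g S (fun G2 => tn g1 (S \ G2) (fun G =>
        if hy P t1 α (D.κ j) ((S \ G2) \ G) G K then 0 else 1)) := by
    rw [← tn_mul]
    refine tn_mono hg0 hg1 S fun G2 _ => ?_
    by_cases h1 : FR P g1 t1 α a (D.κ j) (S \ G2) K
    · rw [if_pos h1, mul_zero]
      exact tn_nonneg hg10 hg11 _ fun G _ => by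
        by_cases h3 : hy P t1 α (D.κ j) ((S \ G2) \ G) G K
        · simp [h3]
        · simp [h3]
    · rw [if_neg h1, mul_one]
      exact (not_le.1 h1).le
  have s2 : tn D.g S (fun G2 => tn g1 (S \ G2) (fun G =>
        if hy P t1 α (D.κ j) ((S \ G2) \ G) G K then 0 else 1)) ≤
      tn D.g S (fun G2 => tn g1 (S \ G2) (fun G =>
        h G + (1 / α) * tn t1 ((S \ G2) \ G) (k G))) := by
    refine tn_mono hg0 hg1 S fun G2 _ => tn_mono hg10 hg11 _ fun G _ => ?_
    have hn : 0 ≤ 1 / α * tn t1 ((S \ G2) \ G) (k G) :=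
      mul_nonneg (by positivity) (tn_nonneg ht10 ht11 _ fun N _ => hk0 G N)
    by_cases h3 : hy P t1 α (D.κ j) ((S \ G2) \ G) G K
    · rw [if_pos h3]
      have : 0 ≤ h G := by
        simp only [hh]
        split_ifs <;> norm_num
      linarith
    · rw [if_neg h3]
      by_cases h4 : hg D P j S G K
      · obtain ⟨hY1, hY2⟩ := hYc G h4
        have h5 : α < fl P t1 ((S \ G2) \ G) (Yc G ∪ G) := by
          by_contra h6
          exact h3 ⟨Yc G, hY1, hY2.1, not_lt.1 h6⟩
        have h6 : tn t1 ((S \ G2) \ G) (k G) = fl P t1 ((S \ G2) \ G) (Yc G ∪ G) := by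
          unfold fl
          refine tn_congr _ fun N _ => ?_
          simp only [hk, if_pos h4]
        rw [h6]
        have h7 : 1 ≤ 1 / α * fl P t1 ((S \ G2) \ G) (Yc G ∪ G) := by
          rw [one_div, ← div_eq_inv_mul, le_div_iff₀ hα]
          linarith
        have : 0 ≤ h G := by
          simp only [hh]
          split_ifs <;> norm_num
        linarith
      · have : h G = 1 := by simp only [hh, if_neg h4]
        linarith
  have s3 : tn D.g S (fun G2 => tn g1 (S \ G2) (fun G =>
        h G + (1 / α) * tn t1 ((S \ G2) \ G) (k G))) =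
      tn D.g S h + 1 / α * tn D.g S (fun G => tn D.t (S \ G) (k G)) := by
    have t1' : ∀ G2 : Finset E, tn g1 (S \ G2) (fun G =>
        h G + (1 / α) * tn t1 ((S \ G2) \ G) (k G)) =
        tn g1 (S \ G2) h + 1 / α * tn g1 (S \ G2) (fun G => tn t1 ((S \ G2) \ G) (k G)) := by
      intro G2
      rw [tn_add, tn_mul]
    simp only [t1']
    rw [tn_add, tn_mul, tn_snd e1]
    congr 2
    rw [tn_swap e1 e1 S (fun G2 G => tn t1 ((S \ G2) \ G) (k G))]
    refine tn_congr _ fun G _ => ?_
    have : ∀ G2 : Finset E, (S \ G2) \ G = (S \ G) \ G2 := fun G2 => sdiff_right_comm _ _ _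
    simp only [this]
    exact tn_snd e2 _ _
  have s4 : tn D.g S (fun G => tn D.t (S \ G) (k G)) ≤ D.a j := by
    refine tn_le_const hg0 hg1 S fun G _ => ?_
    by_cases h4 : hg D P j S G K
    · obtain ⟨hY1, hY2⟩ := hYc G h4
      have h6 : tn D.t (S \ G) (k G) = fl P D.t (S \ G) (Yc G ∪ G) := by
        unfold fl
        refine tn_congr _ fun N _ => ?_
        simp only [hk, if_pos h4]
      rw [h6]
      refine hY2.2.trans (div_le_self haj ?_)
      have : (0 : ℝ) ≤ (Yc G).card := Nat.cast_nonneg _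
      linarith
    · have : k G = fun _ => 0 := by
        funext N
        simp only [hk, if_neg h4]
      rw [this, tn_const]
      exact haj
  have s5 : tn D.g S h = ff D P j S K := rfl
  rw [le_div_iff₀ ha, mul_comm]
  refine (s1.trans s2).trans ?_
  rw [s3, s5]
  have : 1 / α * tn D.g S (fun G => tn D.t (S \ G) (k G)) ≤ 1 / α * D.a j :=
    mul_le_mul_of_nonneg_left s4 (by positivity)
  have e : 1 / α * D.a j = D.a j / α := by ring
  linarith

/-- (c), (d): the estimate for a natural set -/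
theorem natural {s g t g1 t1 t2 ρ u ρ' u' ρ'' A q lam : ℝ} (hs0 : 0 ≤ s) (hs1 : s ≤ 1)
    (hP : ∀ A B, A ⊆ B → P A → P B)
    (ht0 : 0 ≤ t) (ht1 : t ≤ 1) (hg10 : 0 ≤ g1) (hg11 : g1 ≤ 1)
    (ht10 : 0 ≤ t1) (ht11 : t1 ≤ 1) (ht20 : 0 ≤ t2) (ht21 : t2 ≤ 1)
    (hρ0 : 0 ≤ ρ) (hρ1 : ρ ≤ 1) (hu0 : 0 ≤ u) (hu1 : u ≤ 1)
    (hsg0 : 0 ≤ s * g) (hsg1 : s * g ≤ 1)
    (hA0 : 0 ≤ A) (hA1 : A ≤ 1) (hq0 : 0 ≤ q) (hq1 : q ≤ 1)
    (e3 : g1 + (1 - g1) * t2 = t) (e4 : ρ * (1 - g1) = ρ') (e5 : (1 - ρ') * u' = ρ * g1)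
    (e6 : (1 - ρ') * u' = s * g) (e7 : (1 - s * g) * ρ'' = ρ')
    (e8 : (1 - ρ'') * u = A) (e9 : (1 - A) * q = ρ'')
    (hS : HS ((1 - A) * q) A t1 t2 lam) (hl : 1 ≤ lam) (κ : ℕ) {α a β : ℝ} (hα : 0 < α)
    (hα1 : α ≤ 1) (ha : 0 < a) (hβ : 4 * a ≤ β) :
    tn ρ univ (fun R => tn u (univ \ R) (open Classical in fun X =>
      if NEv P g1 t1 α a t β κ R X then 1 else 0)) ≤
      2 / β * (2 ^ 16 * (lam ^ κ * α) ^ 7 / a ^ 16) := by
  classical
  have hβ0 : 0 < β := by linarith
  set C : Finset E → Finset E → Finset E → Prop := fun X G R =>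
    QEv (fun A => P (G ∪ A)) t1 t2 κ α a X R with hC
  -- pointwise
  have s1 : ∀ R X : Finset E, (if NEv P g1 t1 α a t β κ R X then (1 : ℝ) else 0) ≤
      2 / β * tn g1 R (fun G => if C X G (R \ G) then 1 else 0) := by
    intro R X
    have hn : 0 ≤ 2 / β * tn g1 R (fun G => if C X G (R \ G) then (1 : ℝ) else 0) :=
      mul_nonneg (by positivity) (tn_nonneg hg10 hg11 _ fun G _ => by
        by_cases h3 : C X G (R \ G)
        · simp [h3]
        · simp [h3])
    split_ifs with h
    · obtain ⟨h1, h2⟩ := h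
      have k1 : fl P t R X = tn g1 R (fun G => fl P t2 (R \ G) (X ∪ G)) := by
        unfold fl
        rw [← tn_union e3]
        refine tn_congr _ fun G _ => tn_congr _ fun N _ => ?_
        rw [union_assoc]
      have k2 : ∀ G : Finset E, fl P t2 (R \ G) (X ∪ G) ≤
          a + (if hy P t1 α κ (R \ G) G X then 0 else 1) +
            (if C X G (R \ G) then 1 else 0) := by
        intro G
        by_cases h3 : hy P t1 α κ (R \ G) G X
        · rw [if_pos h3]
          by_cases h4 : C X G (R \ G)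
          · rw [if_pos h4]
            have := fl_le_one (P := P) ht20 ht21 (R \ G) (X ∪ G)
            linarith
          · rw [if_neg h4]
            have h5 : fl P t2 (R \ G) (X ∪ G) < a := by
              by_contra h6
              apply h4
              obtain ⟨Y, hY, hYk, hYa⟩ := h3
              refine ⟨⟨Y, hY, hYk, ?_⟩, ?_⟩
              · refine le_trans (le_of_eq ?_) hYa
                unfold fl
                refine tn_congr _ fun N _ => ?_
                have : G ∪ (Y ∪ N) = Y ∪ G ∪ N := by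
                  rw [← union_assoc, union_comm G Y]
                show (if P (G ∪ (Y ∪ N)) then (0 : ℝ) else 1) = if P (Y ∪ G ∪ N) then 0 else 1
                rw [this]
              · refine le_trans (not_lt.1 h6) (le_of_eq ?_)
                unfold fl
                refine tn_congr _ fun N _ => ?_
                have : G ∪ (X ∪ N) = X ∪ G ∪ N := by
                  rw [← union_assoc, union_comm G X]
                show (if P (X ∪ G ∪ N) then (0 : ℝ) else 1) = if P (G ∪ (X ∪ N)) then 0 else 1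
                rw [this]
            linarith
        · rw [if_neg h3]
          have := fl_le_one (P := P) ht20 ht21 (R \ G) (X ∪ G)
          have h5 : (0 : ℝ) ≤ if C X G (R \ G) then 1 else 0 := by split_ifs <;> norm_num
          linarith
      have k3 : fl P t R X ≤ a + a + tn g1 R (fun G => if C X G (R \ G) then 1 else 0) := by
        rw [k1]
        refine (tn_mono hg10 hg11 R fun G _ => k2 G).trans ?_
        rw [tn_add, tn_add, tn_const]
        have : tn g1 R (fun G => if hy P t1 α κ (R \ G) G X then 0 else 1) ≤ a := h1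
        linarith
      have k4 : β / 2 ≤ tn g1 R (fun G => if C X G (R \ G) then 1 else 0) := by linarith
      have k5 := mul_le_mul_of_nonneg_left k4 (by positivity : 0 ≤ 2 / β)
      have k6 : 2 / β * (β / 2) = 1 := by field_simp
      linarith
    · exact hn
  have s2 : tn ρ univ (fun R => tn u (univ \ R) (fun X =>
      if NEv P g1 t1 α a t β κ R X then (1 : ℝ) else 0)) ≤
      2 / β * tn ρ univ (fun R => tn u (univ \ R) (fun X =>
        tn g1 R (fun G => if C X G (R \ G) then 1 else 0))) := by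
    rw [← tn_mul]
    refine tn_mono hρ0 hρ1 _ fun R _ => ?_
    rw [← tn_mul]
    exact tn_mono hu0 hu1 _ fun X _ => s1 R X
  refine s2.trans (mul_le_mul_of_nonneg_left ?_ (by positivity))
  -- rearrangement
  have s3 : tn ρ univ (fun R => tn u (univ \ R) (fun X =>
        tn g1 R (fun G => if C X G (R \ G) then (1 : ℝ) else 0))) =
      tn (s * g) univ (fun G => tn A (univ \ G) (fun X => tn q ((univ \ G) \ X) (fun R =>
        if C X G R then 1 else 0))) := by
    set Fn : Finset E → Finset E → ℝ := fun R' G' => tn u (univ \ (R' ∪ G')) (fun X =>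
          if C X G' R' then (1 : ℝ) else 0) with hFn
    have a1 : ∀ R : Finset E, tn u (univ \ R) (fun X =>
        tn g1 R (fun G => if C X G (R \ G) then (1 : ℝ) else 0)) =
        tn g1 R (fun G => Fn (R \ G) G) := by
      intro R
      rw [tn_comm]
      refine tn_congr _ fun G hG => ?_
      show _ = tn u (univ \ (R \ G ∪ G)) (fun X => if C X G (R \ G) then (1 : ℝ) else 0)
      rw [sdiff_union_of_subset hG]
    have b1 := tn_nest e4 e5 univ Fn
    have b2 := tn_swap e6 e7 univ Fn
    have b3 : tn ρ univ (fun R => tn u (univ \ R) (fun X =>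
        tn g1 R (fun G => if C X G (R \ G) then (1 : ℝ) else 0))) =
        tn ρ univ (fun R => tn g1 R (fun G => Fn (R \ G) G)) := tn_congr _ fun R _ => a1 R
    rw [b3, b1, b2]
    refine tn_congr _ fun G _ => ?_
    have a2 : ∀ R : Finset E, Fn R G = tn u ((univ \ G) \ R) (fun X =>
        if C X G R then (1 : ℝ) else 0) := by
      intro R
      simp only [hFn]
      congr 1
      ext x
      simp only [mem_sdiff, mem_univ, mem_union, true_and, not_or]
      tauto
    simp only [a2]
    exact tn_swap e8 e9 (univ \ G) (fun R X => if C X G R then (1 : ℝ) else 0)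
  rw [s3]
  refine tn_le_const hsg0 hsg1 _ fun G _ => ?_
  have h := qjrl_event hl hA0 hA1 hq0 hq1 ht10 ht11 ht20 ht21 hS (univ \ G) (fun A => P (G ∪ A))
    (fun A B hAB h => hP _ _ (union_subset_union_right hAB) h) κ hα hα1 ha.le
  rw [le_div_iff₀ (by positivity), mul_comm]
  exact h

end

end Vale.Agent.P331.H524
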