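import Vale.Agent.P331.H524.T

/-!
# The quenched joint reverse Lipschitz inequality, exponents 16 and 7
-/

set_option autoImplicit false
set_option linter.unusedSectionVars false

namespace Vale.Agent.P331.H524

open Finset

variable {E : Type*} [Fintype E] [DecidableEq E]

/-- the scalar inequality, homogeneous form -/
def HS (r x t t' lam : ℝ) : Prop := ∀ B0 B1 C0 C1 : ℝ, 0 ≤ B1 → B1 ≤ B0 → 0 < C1 → C1 ≤ C0 →
  r * (((1 - t') * B0 + t' * B1) ^ 16 / ((1 - t) * C0 + t * C1) ^ 7) +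
    x * (B1 ^ 16 / (min C0 (lam * C1)) ^ 7) ≤
    (r + x - r * t) * (B0 ^ 16 / C0 ^ 7) + r * t * (B1 ^ 16 / C1 ^ 7)

/-- the average -/
noncomputable def Bf (t : ℝ) (φ : Finset E → ℝ) (X R : Finset E) : ℝ :=
  tn t R (fun N => φ (X ∪ N))

/-- the minimum over the subsets of `X` -/
noncomputable def Xi (lam t : ℝ) (φ : Finset E → ℝ) (X R : Finset E) : ℝ :=
  X.powerset.inf' ⟨∅, empty_mem_powerset X⟩ (fun Y => lam ^ Y.card * Bf t φ Y R)

theorem Xi_le (lam t : ℝ) (φ : Finset E → ℝ) {X Y : Finset E} (R : Finset E) (h : Y ⊆ X) :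
    Xi lam t φ X R ≤ lam ^ Y.card * Bf t φ Y R :=
  inf'_le (f := fun Y => lam ^ Y.card * Bf t φ Y R) (mem_powerset.2 h)

theorem le_Xi {lam t : ℝ} {φ : Finset E → ℝ} {X R : Finset E} {c : ℝ}
    (h : ∀ Y ⊆ X, c ≤ lam ^ Y.card * Bf t φ Y R) : c ≤ Xi lam t φ X R :=
  le_inf' _ _ fun Y hY => h Y (mem_powerset.1 hY)

theorem Bf_insert (t : ℝ) (φ : Finset E → ℝ) (X : Finset E) {R : Finset E} {e : E}
    (he : e ∉ R) : Bf t φ X (insert e R) =
      (1 - t) * Bf t φ X R + t * Bf t (fun A => φ (insert e A)) X R := by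
  unfold Bf
  rw [tn_insert t he]
  simp only [union_insert]

theorem Bf_pos {t : ℝ} (h0 : 0 ≤ t) (h1 : t ≤ 1) {φ : Finset E → ℝ} (hφ : ∀ A, 0 < φ A)
    (X R : Finset E) : 0 < Bf t φ X R := by
  have h : ∃ c, 0 < c ∧ ∀ A : Finset E, c ≤ φ A := by
    obtain ⟨A0, -, hA0⟩ := exists_min_image univ φ ⟨∅, mem_univ _⟩
    exact ⟨φ A0, hφ A0, fun A => hA0 A (mem_univ A)⟩
  obtain ⟨c, hc, hcφ⟩ := h
  exact hc.trans_le (const_le_tn h0 h1 R fun G _ => hcφ _)

theorem Bf_nonneg {t : ℝ} (h0 : 0 ≤ t) (h1 : t ≤ 1) {φ : Finset E → ℝ} (hφ : ∀ A, 0 ≤ φ A)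
    (X R : Finset E) : 0 ≤ Bf t φ X R := tn_nonneg h0 h1 R fun _ _ => hφ _

theorem Xi_pos {lam t : ℝ} (hl : 0 < lam) (h0 : 0 ≤ t) (h1 : t ≤ 1) {φ : Finset E → ℝ}
    (hφ : ∀ A, 0 < φ A) (X R : Finset E) : 0 < Xi lam t φ X R := by
  obtain ⟨Y0, hY0, h⟩ := exists_mem_eq_inf' (s := X.powerset) ⟨∅, empty_mem_powerset X⟩
    (fun Y => lam ^ Y.card * Bf t φ Y R)
  unfold Xi
  rw [h]
  exact mul_pos (pow_pos hl _) (Bf_pos h0 h1 hφ _ _)

theorem Xi_mono {lam t : ℝ} (hl : 0 ≤ lam) (h0 : 0 ≤ t) (h1 : t ≤ 1) {φ ψ : Finset E → ℝ}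
    (h : ∀ A, φ A ≤ ψ A) (X R : Finset E) : Xi lam t φ X R ≤ Xi lam t ψ X R :=
  le_Xi fun Y hY => (Xi_le lam t φ R hY).trans
    (mul_le_mul_of_nonneg_left (tn_mono h0 h1 R fun _ _ => h _) (pow_nonneg hl _))

theorem Xi_R {lam t : ℝ} (hl : 0 ≤ lam) (h0 : 0 ≤ t) (h1 : t ≤ 1) (φ : Finset E → ℝ)
    (X : Finset E) {R : Finset E} {e : E} (he : e ∉ R) :
    (1 - t) * Xi lam t φ X R + t * Xi lam t (fun A => φ (insert e A)) X R ≤
      Xi lam t φ X (insert e R) := by
  refine le_Xi fun Y hY => ?_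
  rw [Bf_insert t φ Y he]
  have a1 := mul_le_mul_of_nonneg_left (Xi_le lam t φ R hY) (by linarith : 0 ≤ 1 - t)
  have a2 := mul_le_mul_of_nonneg_left (Xi_le lam t (fun A => φ (insert e A)) R hY) h0
  nlinarith [a1, a2]

theorem Xi_X {lam t : ℝ} (hl : 0 ≤ lam) (φ : Finset E → ℝ)
    {X : Finset E} (R : Finset E) {e : E} (he : e ∉ X) :
    min (Xi lam t φ X R) (lam * Xi lam t (fun A => φ (insert e A)) X R) ≤
      Xi lam t φ (insert e X) R := by
  refine le_Xi fun Y hY => ?_
  by_cases heY : e ∈ Y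
  · refine (min_le_right _ _).trans ?_
    have h1 : Y.erase e ⊆ X := by
      intro x hx
      rcases mem_insert.1 (hY (mem_of_mem_erase hx)) with h | h
      · exact absurd h (ne_of_mem_erase hx)
      · exact h
    have h2 := mul_le_mul_of_nonneg_left (Xi_le lam t (fun A => φ (insert e A)) R h1) hl
    have h3 : Bf t (fun A => φ (insert e A)) (Y.erase e) R = Bf t φ Y R := by
      unfold Bf
      refine tn_congr _ fun G _ => ?_
      show φ (insert e (Y.erase e ∪ G)) = φ (Y ∪ G)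
      rw [← insert_union, insert_erase heY]
    have h4 : Y.card = (Y.erase e).card + 1 := (card_erase_add_one heY).symm
    rw [h3] at h2
    rw [h4, pow_succ]
    linarith
  · refine (min_le_left _ _).trans (Xi_le lam t φ R ?_)
    intro x hx
    rcases mem_insert.1 (hY hx) with h | h
    · exact absurd (h ▸ hx) heY
    · exact h

/-- **Quenched joint reverse Lipschitz inequality.** -/
theorem qjrl {a q t t' lam : ℝ} (hl : 0 < lam) (ha0 : 0 ≤ a) (ha1 : a ≤ 1) (hq0 : 0 ≤ q)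
    (hq1 : q ≤ 1) (ht0 : 0 ≤ t) (ht1 : t ≤ 1) (ht0' : 0 ≤ t') (ht1' : t' ≤ 1)
    (hS : HS ((1 - a) * q) a t t' lam) (U : Finset E) :
    ∀ φ : Finset E → ℝ, (∀ A, 0 < φ A) → (∀ A e, φ (insert e A) ≤ φ A) →
    tn a U (fun X => tn q (U \ X) (fun R => Bf t' φ X R ^ 16 / Xi lam t φ X R ^ 7)) ≤
      tn ((1 - a) * q * t) U (fun T => φ T ^ 9) := by
  induction U using Finset.induction_on with
  | empty =>
    intro φ hφ _
    rw [tn_empty, tn_empty, empty_sdiff, tn_empty]
    have h1 : Bf t' φ (∅ : Finset E) ∅ = φ ∅ := by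
      unfold Bf; rw [tn_empty, union_empty]
    have h2 : Xi lam t φ (∅ : Finset E) ∅ = φ ∅ := by
      refine le_antisymm ?_ (le_Xi fun Y hY => ?_)
      · refine (Xi_le lam t φ ∅ (subset_refl _)).trans (le_of_eq ?_)
        unfold Bf; rw [tn_empty, card_empty, pow_zero, one_mul, union_empty]
      · rw [subset_empty.1 hY]
        unfold Bf; rw [tn_empty, card_empty, pow_zero, one_mul, union_empty]
    rw [h1, h2, div_le_iff₀ (pow_pos (hφ _) _)]
    exact le_of_eq (by ring)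
  | insert e U he ih =>
    intro φ hφ hd
    set φ1 : Finset E → ℝ := fun A => φ (insert e A) with hφ1
    have hφ1' : ∀ A, 0 < φ1 A := fun A => hφ _
    have hd1 : ∀ A f, φ1 (insert f A) ≤ φ1 A := by
      intro A f
      show φ (insert e (insert f A)) ≤ φ (insert e A)
      rw [Finset.insert_comm]
      exact hd _ _
    have hle : ∀ A, φ1 A ≤ φ A := fun A => hd A e
    set r := (1 - a) * q with hr
    have hr0 : 0 ≤ r := mul_nonneg (by linarith) hq0
    set G := fun (ψ : Finset E → ℝ) (X R : Finset E) => Bf t' ψ X R ^ 16 / Xi lam t ψ X R ^ 7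
      with hG
    have e1 : tn a (insert e U) (fun X => tn q (insert e U \ X) (G φ X)) =
        tn a U (fun X => tn q (U \ X) (fun R => (1 - a) * (1 - q) * G φ X R +
          r * G φ X (insert e R) + a * G φ (insert e X) R)) := by
      rw [tn_insert a he, ← tn_mul, ← tn_mul, ← tn_add]
      refine tn_congr _ fun X hX => ?_
      have heX : e ∉ X := fun h => he (hX h)
      have s1 : insert e U \ X = insert e (U \ X) := insert_sdiff_of_notMem _ heX
      have s2 : insert e U \ insert e X = U \ X := by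
        ext x
        simp only [mem_sdiff, mem_insert, not_or]
        constructor
        · rintro ⟨h | h, h3, h4⟩
          · exact absurd h h3
          · exact ⟨h, h4⟩
        · rintro ⟨h, h4⟩
          exact ⟨Or.inr h, fun h5 => he (h5 ▸ h), h4⟩
      show (1 - a) * tn q (insert e U \ X) (G φ X) +
        a * tn q (insert e U \ insert e X) (G φ (insert e X)) = _
      rw [s1, s2, tn_insert q (fun h => he (mem_sdiff.1 h).1), tn_add, tn_add, tn_mul, tn_mul,
        tn_mul, hr]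
      ring
    rw [e1]
    have hpt : ∀ X R : Finset E, e ∉ X → e ∉ R →
        (1 - a) * (1 - q) * G φ X R + r * G φ X (insert e R) + a * G φ (insert e X) R ≤
        (1 - r * t) * G φ X R + r * t * G φ1 X R := by
      intro X R heX heR
      have c0 := Xi_pos hl ht0 ht1 hφ X R
      have c1 := Xi_pos hl ht0 ht1 hφ1' X R
      have b1 := Bf_nonneg ht0' ht1' (fun A => (hφ1' A).le) X R
      have b01 : Bf t' φ1 X R ≤ Bf t' φ X R := tn_mono ht0' ht1' R fun _ _ => hle _
      have c01 : Xi lam t φ1 X R ≤ Xi lam t φ X R := Xi_mono hl.le ht0 ht1 hle X R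
      have hs := hS _ _ _ _ b1 b01 c1 c01
      have g1 : G φ X (insert e R) ≤ ((1 - t') * Bf t' φ X R + t' * Bf t' φ1 X R) ^ 16 /
          ((1 - t) * Xi lam t φ X R + t * Xi lam t φ1 X R) ^ 7 := by
        simp only [hG]
        rw [Bf_insert t' φ X heR]
        have hm : 0 < (1 - t) * Xi lam t φ X R + t * Xi lam t φ1 X R := by
          nlinarith [mul_nonneg (by linarith : 0 ≤ 1 - t) (sub_nonneg.2 c01)]
        refine div_le_div_of_nonneg_left ?_ (pow_pos hm 7)
          (pow_le_pow_left₀ hm.le (Xi_R hl.le ht0 ht1 φ X heR) 7)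
        exact Even.pow_nonneg (by decide) _
      have g2 : G φ (insert e X) R ≤ Bf t' φ1 X R ^ 16 /
          (min (Xi lam t φ X R) (lam * Xi lam t φ1 X R)) ^ 7 := by
        simp only [hG]
        have hB : Bf t' φ (insert e X) R = Bf t' φ1 X R := by
          unfold Bf
          refine tn_congr _ fun N _ => ?_
          show φ (insert e X ∪ N) = φ (insert e (X ∪ N))
          rw [insert_union]
        rw [hB]
        have hm : 0 < min (Xi lam t φ X R) (lam * Xi lam t φ1 X R) :=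
          lt_min c0 (mul_pos hl c1)
        refine div_le_div_of_nonneg_left ?_ (pow_pos hm 7)
          (pow_le_pow_left₀ hm.le (Xi_X hl.le φ R heX) 7)
        exact Even.pow_nonneg (by decide) _
      have g3 := mul_le_mul_of_nonneg_left g1 hr0
      have g4 := mul_le_mul_of_nonneg_left g2 ha0
      have g5 : G φ X R = Bf t' φ X R ^ 16 / Xi lam t φ X R ^ 7 := rfl
      have g6 : G φ1 X R = Bf t' φ1 X R ^ 16 / Xi lam t φ1 X R ^ 7 := rfl
      rw [← g5, ← g6] at hs
      have g7 : (1 - a) * (1 - q) = 1 - r - a := by rw [hr]; ring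
      rw [g7]
      linarith
    have e2 : tn a U (fun X => tn q (U \ X) (fun R => (1 - a) * (1 - q) * G φ X R +
          r * G φ X (insert e R) + a * G φ (insert e X) R)) ≤
        tn a U (fun X => tn q (U \ X) (fun R => (1 - r * t) * G φ X R + r * t * G φ1 X R)) := by
      refine tn_mono ha0 ha1 U fun X hX => tn_mono hq0 hq1 _ fun R hR => ?_
      exact hpt X R (fun h => he (hX h)) (fun h => he (mem_sdiff.1 (hR h)).1)
    refine e2.trans ?_
    have e3 : tn a U (fun X => tn q (U \ X) (fun R => (1 - r * t) * G φ X R + r * t * G φ1 X R)) =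
        (1 - r * t) * tn a U (fun X => tn q (U \ X) (G φ X)) +
          r * t * tn a U (fun X => tn q (U \ X) (G φ1 X)) := by
      rw [← tn_mul, ← tn_mul, ← tn_add]
      refine tn_congr _ fun X _ => ?_
      rw [tn_add, tn_mul, tn_mul]
    rw [e3, tn_insert (r * t) he]
    have i1 := ih φ hφ hd
    have i2 := ih φ1 hφ1' hd1
    have hr1 : r ≤ 1 := by
      rw [hr]
      nlinarith
    have hrt : 0 ≤ r * t := mul_nonneg hr0 ht0
    have hrt1 : 0 ≤ 1 - r * t := by nlinarith
    exact add_le_add (mul_le_mul_of_nonneg_left i1 hrt1) (mul_le_mul_of_nonneg_left i2 hrt)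

/-- the event of the inequality -/
def QEv (P : Finset E → Prop) (t t' : ℝ) (κ : ℕ) (α β : ℝ) (X R : Finset E) : Prop :=
  (∃ Y ⊆ X, Y.card ≤ κ ∧ tn t R (open Classical in fun N => if P (Y ∪ N) then 0 else 1) ≤ α) ∧
    β ≤ tn t' R (open Classical in fun N => if P (X ∪ N) then 0 else 1)

open Classical in
/-- event form -/
theorem qjrl_event {a q t t' lam : ℝ} (hl : 1 ≤ lam) (ha0 : 0 ≤ a) (ha1 : a ≤ 1) (hq0 : 0 ≤ q)
    (hq1 : q ≤ 1) (ht0 : 0 ≤ t) (ht1 : t ≤ 1) (ht0' : 0 ≤ t') (ht1' : t' ≤ 1)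
    (hS : HS ((1 - a) * q) a t t' lam) (U : Finset E) (P : Finset E → Prop)
    (hP : ∀ A B, A ⊆ B → P A → P B) (κ : ℕ) {α β : ℝ} (hα : 0 < α) (hα1 : α ≤ 1) (hβ : 0 ≤ β) :
    β ^ 16 * tn a U (fun X => tn q (U \ X) (fun R =>
      if QEv P t t' κ α β X R then 1 else 0)) ≤
      2 ^ 16 * (lam ^ κ * α) ^ 7 := by
  have hl0 : 0 < lam := by linarith
  set φ : Finset E → ℝ := fun A => (if P A then 0 else 1) + α with hφd
  have hφ : ∀ A, 0 < φ A := by
    intro A
    simp only [hφd]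
    split_ifs <;> linarith
  have hd : ∀ A e, φ (insert e A) ≤ φ A := by
    intro A e
    simp only [hφd]
    by_cases h : P A
    · rw [if_pos h, if_pos (hP A _ (subset_insert e A) h)]
    · rw [if_neg h]
      split_ifs <;> linarith
  have hφ2 : ∀ A, φ A ≤ 2 := by
    intro A
    simp only [hφd]
    split_ifs <;> linarith
  have h1 := qjrl hl0 ha0 ha1 hq0 hq1 ht0 ht1 ht0' ht1' hS U φ hφ hd
  have h2 : tn ((1 - a) * q * t) U (fun T => φ T ^ 9) ≤ 2 ^ 9 := by
    refine tn_le_const ?_ ?_ U fun T _ => pow_le_pow_left₀ (hφ T).le (hφ2 T) 9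
    · exact mul_nonneg (mul_nonneg (by linarith) hq0) ht0
    · have : (1 - a) * q ≤ 1 := by nlinarith
      have h3 : 0 ≤ (1 - a) * q := mul_nonneg (by linarith) hq0
      nlinarith
  have hA : 0 < lam ^ κ * α := by positivity
  have h3 : ∀ X R : Finset E, β ^ 16 / (2 * (lam ^ κ * α)) ^ 7 *
      (if QEv P t t' κ α β X R then 1 else 0) ≤
      Bf t' φ X R ^ 16 / Xi lam t φ X R ^ 7 := by
    intro X R
    have hxi := Xi_pos hl0 ht0 ht1 hφ X R
    split_ifs with h
    · obtain ⟨⟨Y, hY, hYk, hYa⟩, hb⟩ := h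
      rw [mul_one]
      have k1 : Bf t' φ X R = tn t' R (fun N => if P (X ∪ N) then 0 else 1) + α := by
        unfold Bf
        simp only [hφd]
        rw [tn_add, tn_const]
      have k2 : Bf t φ Y R = tn t R (fun N => if P (Y ∪ N) then 0 else 1) + α := by
        unfold Bf
        simp only [hφd]
        rw [tn_add, tn_const]
      have k3 : Xi lam t φ X R ≤ 2 * (lam ^ κ * α) := by
        refine (Xi_le lam t φ R hY).trans ?_
        rw [k2]
        have k4 : lam ^ Y.card ≤ lam ^ κ := pow_le_pow_right₀ hl hYk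
        have k5 : tn t R (fun N => if P (Y ∪ N) then 0 else 1) + α ≤ 2 * α := by linarith
        calc lam ^ Y.card * (tn t R (fun N => if P (Y ∪ N) then 0 else 1) + α)
            ≤ lam ^ Y.card * (2 * α) := mul_le_mul_of_nonneg_left k5 (by positivity)
          _ ≤ lam ^ κ * (2 * α) := mul_le_mul_of_nonneg_right k4 (by positivity)
          _ = _ := by ring
      refine div_le_div₀ (by positivity) ?_ (pow_pos hxi 7)
        (pow_le_pow_left₀ hxi.le k3 7)
      rw [k1]
      exact pow_le_pow_left₀ hβ (by linarith) 16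
    · rw [mul_zero]
      positivity
  have h4 : β ^ 16 / (2 * (lam ^ κ * α)) ^ 7 * tn a U (fun X => tn q (U \ X) (fun R =>
      if QEv P t t' κ α β X R then 1 else 0)) ≤ 2 ^ 9 := by
    refine le_trans ?_ (h1.trans h2)
    rw [← tn_mul]
    refine tn_mono ha0 ha1 U fun X _ => ?_
    rw [← tn_mul]
    exact tn_mono hq0 hq1 _ fun R _ => h3 X R
  have h5 : 0 < (2 * (lam ^ κ * α)) ^ 7 := by positivity
  rw [div_mul_eq_mul_div, div_le_iff₀ h5] at h4
  refine h4.trans (le_of_eq ?_)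
  ring

end Vale.Agent.P331.H524
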