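import Vale.Agent.P331.H250.Ker

/-!
# Thinnings of finite sets with a constant rate
-/

set_option autoImplicit false
set_option linter.unusedSectionVars false

namespace Vale.Agent.P331.H524

open Finset Vale.Agent.P331.H489 Vale.Agent.P331.H250

variable {E : Type*} [Fintype E] [DecidableEq E]

/-- expectation of `f G`, `G` the thinning of `S` with rate `r` -/
def tn (r : ℝ) (S : Finset E) (f : Finset E → ℝ) : ℝ := TH (fun _ => r) S f

theorem tn_eq_sum (r : ℝ) (S : Finset E) (f : Finset E → ℝ) :
    tn r S f = ∑ G ∈ S.powerset, r ^ G.card * (1 - r) ^ (S \ G).card * f G := by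
  unfold tn
  rw [TH_eq_sum]
  refine sum_congr rfl fun G _ => ?_
  rw [prod_const, prod_const]

theorem tn_empty (r : ℝ) (f : Finset E → ℝ) : tn r ∅ f = f ∅ := by
  rw [tn_eq_sum]
  simp

theorem tn_insert (r : ℝ) {S : Finset E} {e : E} (he : e ∉ S) (f : Finset E → ℝ) :
    tn r (insert e S) f = (1 - r) * tn r S f + r * tn r S (fun G => f (insert e G)) := by
  rw [tn_eq_sum, tn_eq_sum, tn_eq_sum, sum_powerset_insert he, mul_sum, mul_sum]
  congr 1
  · refine sum_congr rfl fun G hG => ?_
    have hG' := mem_powerset.1 hG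
    have h1 : e ∉ G := fun h => he (hG' h)
    have h2 : insert e S \ G = insert e (S \ G) := by
      rw [insert_sdiff_of_notMem _ h1]
    have h3 : e ∉ S \ G := fun h => he (mem_sdiff.1 h).1
    rw [h2, card_insert_of_notMem h3, pow_succ]
    ring
  · refine sum_congr rfl fun G hG => ?_
    have hG' := mem_powerset.1 hG
    have h1 : e ∉ G := fun h => he (hG' h)
    have h2 : insert e S \ insert e G = S \ G := by
      ext x
      simp only [mem_sdiff, mem_insert, not_or]
      constructor
      · rintro ⟨h | h, h3, h4⟩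
        · exact absurd h h3
        · exact ⟨h, h4⟩
      · rintro ⟨h, h4⟩
        exact ⟨Or.inr h, fun h5 => he (h5 ▸ h), h4⟩
    rw [h2, card_insert_of_notMem h1, pow_succ]
    ring

theorem tn_nonneg {r : ℝ} (h0 : 0 ≤ r) (h1 : r ≤ 1) (S : Finset E) {f : Finset E → ℝ}
    (hf : ∀ G, G ⊆ S → 0 ≤ f G) : 0 ≤ tn r S f := TH_nonneg (fun _ => h0) (fun _ => h1) S hf

theorem tn_mono {r : ℝ} (h0 : 0 ≤ r) (h1 : r ≤ 1) (S : Finset E) {f g : Finset E → ℝ}
    (hf : ∀ G, G ⊆ S → f G ≤ g G) : tn r S f ≤ tn r S g :=
  TH_mono (fun _ => h0) (fun _ => h1) S hf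

theorem tn_congr (r : ℝ) {S : Finset E} {f g : Finset E → ℝ}
    (hf : ∀ G, G ⊆ S → f G = g G) : tn r S f = tn r S g :=
  TH_congr (fun _ _ => rfl) hf

theorem tn_const (r : ℝ) (S : Finset E) (c : ℝ) : tn r S (fun _ => c) = c := TH_const _ _ _

theorem tn_add (r : ℝ) (S : Finset E) (f g : Finset E → ℝ) :
    tn r S (fun G => f G + g G) = tn r S f + tn r S g := TH_add _ _ _ _

theorem tn_sub (r : ℝ) (S : Finset E) (f g : Finset E → ℝ) :
    tn r S (fun G => f G - g G) = tn r S f - tn r S g := TH_sub _ _ _ _

theorem tn_mul (r : ℝ) (S : Finset E) (c : ℝ) (f : Finset E → ℝ) :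
    tn r S (fun G => c * f G) = c * tn r S f := TH_mul _ _ _ _

theorem tn_sum {ι : Type*} (s : Finset ι) (r : ℝ) (S : Finset E) (f : ι → Finset E → ℝ) :
    tn r S (fun G => ∑ i ∈ s, f i G) = ∑ i ∈ s, tn r S (f i) := TH_sum _ _ _ _

theorem tn_le_const {r : ℝ} (h0 : 0 ≤ r) (h1 : r ≤ 1) (S : Finset E) {f : Finset E → ℝ} {c : ℝ}
    (hf : ∀ G, G ⊆ S → f G ≤ c) : tn r S f ≤ c :=
  (tn_mono h0 h1 S hf).trans (tn_const r S c).le

theorem const_le_tn {r : ℝ} (h0 : 0 ≤ r) (h1 : r ≤ 1) (S : Finset E) {f : Finset E → ℝ} {c : ℝ}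
    (hf : ∀ G, G ⊆ S → c ≤ f G) : c ≤ tn r S f :=
  (tn_const r S c).ge.trans (tn_mono h0 h1 S hf)

/-- the thinning of a set only sees the part on which the function depends -/
theorem tn_inter (r : ℝ) (H : Finset E) (f : Finset E → ℝ)
    (hf : ∀ G, f G = f (G ∩ H)) (S : Finset E) : tn r S f = tn r (S ∩ H) f := by
  induction S using Finset.induction_on generalizing f with
  | empty => simp
  | insert e S he ih =>
    rw [tn_insert r he]
    by_cases heH : e ∈ H
    · have h1 : insert e S ∩ H = insert e (S ∩ H) := insert_inter_of_mem heH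
      rw [h1, tn_insert r (fun h => he (mem_inter.1 h).1), ih f hf,
        ih (fun G => f (insert e G)) fun G => ?_]
      show f (insert e G) = f (insert e (G ∩ H))
      rw [hf (insert e G), hf (insert e (G ∩ H)), insert_inter_of_mem heH,
        insert_inter_of_mem heH, inter_assoc, inter_self]
    · have h1 : insert e S ∩ H = S ∩ H := insert_inter_of_notMem heH
      have h2 : (fun G => f (insert e G)) = f := by
        funext G
        rw [hf (insert e G), insert_inter_of_notMem heH, ← hf G]
      rw [h1, h2, ih f hf]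
      ring

/-! ## identities for nested thinnings -/

/-- exchange of two exclusive thinnings -/
theorem tn_swap {r q r' q' : ℝ} (h1 : (1 - r) * q = r') (h2 : (1 - r') * q' = r)
    (S : Finset E) (F : Finset E → Finset E → ℝ) :
    tn r S (fun G => tn q (S \ G) (fun N => F G N)) =
      tn r' S (fun N => tn q' (S \ N) (fun G => F G N)) :=
  TH_TH_swap _ _ _ _ S (fun _ _ => h1) (fun _ _ => h2) F

/-- union of two exclusive thinnings -/
theorem tn_union {r q t : ℝ} (h : r + (1 - r) * q = t) (S : Finset E) (f : Finset E → ℝ) :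
    tn r S (fun G => tn q (S \ G) (fun N => f (G ∪ N))) = tn t S f :=
  TH_TH_union _ _ _ S (fun _ _ => h) f

/-- second of two exclusive thinnings -/
theorem tn_snd {r q t : ℝ} (h : (1 - r) * q = t) (S : Finset E) (f : Finset E → ℝ) :
    tn r S (fun G => tn q (S \ G) f) = tn t S f :=
  TH_TH_snd _ _ _ S (fun _ _ => h) f

/-- a thinning of a thinning: first the union of two exclusive sets, then the first of them, or
first the second one and then the first one in the rest -/
theorem tn_nest {s g t u : ℝ} (h1 : s * (1 - g) = t) (h2 : (1 - t) * u = s * g) (S : Finset E)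
    (F : Finset E → Finset E → ℝ) :
    tn s S (fun A => tn g A (fun G => F (A \ G) G)) =
      tn t S (fun R => tn u (S \ R) (fun G => F R G)) := by
  induction S using Finset.induction_on generalizing F with
  | empty => simp [tn_empty]
  | insert e S he ih =>
    rw [tn_insert s he, tn_insert t he]
    have a1 : tn s S (fun A => tn g (insert e A) (fun G => F (insert e A \ G) G)) =
        (1 - g) * tn s S (fun A => tn g A (fun G => F (insert e (A \ G)) G)) +
          g * tn s S (fun A => tn g A (fun G => F (A \ G) (insert e G))) := by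
      rw [← tn_mul, ← tn_mul, ← tn_add]
      refine tn_congr _ fun A hA => ?_
      have heA : e ∉ A := fun h => he (hA h)
      rw [tn_insert g heA]
      congr 2
      · refine tn_congr _ fun G hG => ?_
        rw [insert_sdiff_of_notMem _ (fun h => heA (hG h))]
      · refine tn_congr _ fun G hG => ?_
        congr 1
        ext x
        simp only [mem_sdiff, mem_insert, not_or]
        constructor
        · rintro ⟨h | h, h3, h4⟩
          · exact absurd h h3
          · exact ⟨h, h4⟩
        · rintro ⟨h, h4⟩
          exact ⟨Or.inr h, fun h5 => heA (h5 ▸ h), h4⟩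
    have a2 : tn t S (fun R => tn u (insert e S \ R) (fun G => F R G)) =
        (1 - u) * tn t S (fun R => tn u (S \ R) (fun G => F R G)) +
          u * tn t S (fun R => tn u (S \ R) (fun G => F R (insert e G))) := by
      rw [← tn_mul, ← tn_mul, ← tn_add]
      refine tn_congr _ fun R hR => ?_
      rw [insert_sdiff_of_notMem _ (fun h => he (hR h)),
        tn_insert u (fun h => he (mem_sdiff.1 h).1)]
    have a3 : tn t S (fun R => tn u (insert e S \ insert e R) (fun G => F (insert e R) G)) =
        tn t S (fun R => tn u (S \ R) (fun G => F (insert e R) G)) := by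
      refine tn_congr _ fun R hR => ?_
      congr 1
      ext x
      simp only [mem_sdiff, mem_insert, not_or]
      constructor
      · rintro ⟨h | h, h3, h4⟩
        · exact absurd h h3
        · exact ⟨h, h4⟩
      · rintro ⟨h, h4⟩
        exact ⟨Or.inr h, fun h5 => he (h5 ▸ h), h4⟩
    have b1 := ih F
    have b2 := ih (fun R G => F (insert e R) G)
    have b3 := ih (fun R G => F R (insert e G))
    rw [a1, a2, a3, b1, b2, b3]
    have c1 : (1 - s) = (1 - t) * (1 - u) := by linear_combination h2 - h1
    linear_combination (tn t S fun R => tn u (S \ R) fun G => F R G) * c1 +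
      (tn t S fun R => tn u (S \ R) fun G => F (insert e R) G) * h1 -
      (tn t S fun R => tn u (S \ R) fun G => F R (insert e G)) * h2

end Vale.Agent.P331.H524
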